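import Vale.Agent.Lib.P125.Mt.Flow

/-!
The core estimate: the pairing of the mean displacement against labels on many levels.
-/

namespace Vale.Agent.Lib.P125

open Finset Matrix

namespace Mt

/-- A cube root. -/
noncomputable def cr (t : ℝ) : ℝ := t ^ ((1 : ℝ) / 3)

lemma cr_nonneg {t : ℝ} (ht : 0 ≤ t) : 0 ≤ cr t := Real.rpow_nonneg ht _

lemma cr_cube {t : ℝ} (ht : 0 ≤ t) : (cr t) ^ 3 = t := by
  unfold cr
  rw [← Real.rpow_natCast, ← Real.rpow_mul ht]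
  norm_num

lemma lam_le_one (T V B : ℝ) (ℓ : ℕ) : lam T V B ℓ ≤ 8 * (2 ^ ℓ * T) := by
  unfold lam
  have := min_le_left (2 ^ ℓ * T) (min V (16 * (1 / 4) ^ ℓ * B))
  linarith

lemma lam_le_two (T V B : ℝ) (ℓ : ℕ) : lam T V B ℓ ≤ 8 * V := by
  unfold lam
  have := (min_le_right (2 ^ ℓ * T) (min V (16 * (1 / 4) ^ ℓ * B))).trans (min_le_left _ _)
  linarith

lemma lam_le_three (T V B : ℝ) (ℓ : ℕ) : lam T V B ℓ ≤ 8 * (16 * (1 / 4) ^ ℓ * B) := by
  unfold lam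
  have := (min_le_right (2 ^ ℓ * T) (min V (16 * (1 / 4) ^ ℓ * B))).trans (min_le_right _ _)
  linarith

/-- Young inequality in polynomial form. -/
lemma young_poly {l t M r s : ℝ} (hl : 0 ≤ l) (ht : 0 ≤ t) (hM : 0 < M) (hr : 0 < r) (hs : 0 < s) :
    l * t ^ 2 ≤ s ^ 2 * l ^ 3 / (3 * M ^ 2 * r ^ 2) + (2 / 3) * M * r * t ^ 3 / s := by
  have amgm : ∀ a b : ℝ, 0 ≤ a → 0 ≤ b → a * b ^ 2 ≤ a ^ 3 / 3 + 2 * b ^ 3 / 3 := by
    intro a b ha hb
    nlinarith [mul_nonneg (add_nonneg (mul_nonneg (by norm_num : (0 : ℝ) ≤ 2) hb) ha)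
      (sq_nonneg (a - b)), mul_nonneg ha (sq_nonneg (a - b)), mul_nonneg hb (sq_nonneg (a - b))]
  have h := amgm (l / (M * r)) (t / s) (by positivity) (by positivity)
  have hpos : 0 < M * r * s ^ 2 := by positivity
  have h2 := mul_le_mul_of_nonneg_left h hpos.le
  have e1 : M * r * s ^ 2 * (l / (M * r) * (t / s) ^ 2) = l * t ^ 2 := by
    field_simp
  have e2 : M * r * s ^ 2 * ((l / (M * r)) ^ 3 / 3 + 2 * (t / s) ^ 3 / 3)
      = s ^ 2 * l ^ 3 / (3 * M ^ 2 * r ^ 2) + (2 / 3) * M * r * t ^ 3 / s := by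
    field_simp
  rwa [e1, e2] at h2

/-- Geometric envelope. -/
noncomputable def wt (n j : ℕ) : ℝ := (1 / 2) ^ (j - n)

lemma wt_nonneg (n j : ℕ) : 0 ≤ wt n j := by unfold wt; positivity

lemma wt_sum_aux (n k : ℕ) : ∑ j ∈ range (n + k), wt n j ≤ n + 2 - 2 * (1 / 2) ^ k := by
  induction k with
  | zero =>
    have : ∑ j ∈ range n, wt n j = n := by
      have : ∀ j ∈ range n, wt n j = 1 := by
        intro j hj
        have := Finset.mem_range.mp hj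
        unfold wt
        rw [show j - n = 0 by omega]
        simp
      rw [Finset.sum_congr rfl this]
      simp
    simp [this]
  | succ k ih =>
    rw [← add_assoc, Finset.sum_range_succ]
    have : wt n (n + k) = (1 / 2) ^ k := by
      unfold wt
      rw [show n + k - n = k by omega]
    rw [this, pow_succ]
    have h : (0 : ℝ) < (1 / 2) ^ k := by positivity
    linarith

lemma wt_sum (n J : ℕ) : ∑ j ∈ range J, wt n j ≤ n + 2 := by
  have h1 : ∑ j ∈ range J, wt n j ≤ ∑ j ∈ range (n + J), wt n j :=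
    Finset.sum_le_sum_of_subset_of_nonneg (by
      intro j hj
      simp only [Finset.mem_range] at hj ⊢
      omega) (fun j _ _ => wt_nonneg n j)
  have h2 := wt_sum_aux n J
  have h3 : (0 : ℝ) < (1 / 2) ^ J := by positivity
  linarith

lemma sum_inj_le (s : Finset ℕ) (g : ℕ → ℕ) (J : ℕ) (hinj : Set.InjOn g s)
    (hJ : ∀ x ∈ s, g x < J) (f : ℕ → ℝ) (hf : ∀ j, 0 ≤ f j) :
    ∑ x ∈ s, f (g x) ≤ ∑ j ∈ range J, f j := by
  rw [← Finset.sum_image (f := f) hinj]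
  refine Finset.sum_le_sum_of_subset_of_nonneg ?_ (fun j _ _ => hf j)
  intro j hj
  obtain ⟨x, hx, rfl⟩ := Finset.mem_image.mp hj
  exact Finset.mem_range.mpr (hJ x hx)

lemma wt_row (n ℓ L : ℕ) : ∑ k ∈ range L, wt n (Nat.dist ℓ k) ≤ 2 * n + 4 := by
  classical
  have hsplit := Finset.sum_filter_add_sum_filter_not (range L) (fun k => k ≤ ℓ)
    (fun k => wt n (Nat.dist ℓ k))
  have h1 : ∑ k ∈ (range L).filter (fun k => k ≤ ℓ), wt n (Nat.dist ℓ k) ≤ n + 2 := by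
    have e : ∑ k ∈ (range L).filter (fun k => k ≤ ℓ), wt n (Nat.dist ℓ k)
        = ∑ k ∈ (range L).filter (fun k => k ≤ ℓ), wt n (ℓ - k) := by
      refine Finset.sum_congr rfl fun k hk => ?_
      have := (Finset.mem_filter.mp hk).2
      unfold Nat.dist
      rw [show ℓ - k + (k - ℓ) = ℓ - k by omega]
    rw [e]
    refine (sum_inj_le _ (fun k => ℓ - k) (ℓ + 1) ?_ ?_ (wt n) (wt_nonneg n)).trans (wt_sum n _)
    · intro a ha b hb hab
      have ha' := (Finset.mem_filter.mp (Finset.mem_coe.mp ha)).2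
      have hb' := (Finset.mem_filter.mp (Finset.mem_coe.mp hb)).2
      have hab' : ℓ - a = ℓ - b := hab
      omega
    · intro x _
      show ℓ - x < ℓ + 1
      omega
  have h2 : ∑ k ∈ (range L).filter (fun k => ¬ k ≤ ℓ), wt n (Nat.dist ℓ k) ≤ n + 2 := by
    have e : ∑ k ∈ (range L).filter (fun k => ¬ k ≤ ℓ), wt n (Nat.dist ℓ k)
        = ∑ k ∈ (range L).filter (fun k => ¬ k ≤ ℓ), wt n (k - ℓ) := by
      refine Finset.sum_congr rfl fun k hk => ?_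
      have := (Finset.mem_filter.mp hk).2
      unfold Nat.dist
      rw [show ℓ - k + (k - ℓ) = k - ℓ by omega]
    rw [e]
    refine (sum_inj_le _ (fun k => k - ℓ) L ?_ ?_ (wt n) (wt_nonneg n)).trans (wt_sum n _)
    · intro a ha b hb hab
      have ha' := (Finset.mem_filter.mp (Finset.mem_coe.mp ha)).2
      have hb' := (Finset.mem_filter.mp (Finset.mem_coe.mp hb)).2
      have hab' : a - ℓ = b - ℓ := hab
      omega
    · intro x hx
      have := Finset.mem_range.mp (Finset.mem_filter.mp hx).1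
      show x - ℓ < L
      omega
  linarith

lemma wt_col (n k L : ℕ) : ∑ ℓ ∈ range L, wt n (Nat.dist ℓ k) ≤ 2 * n + 4 := by
  simpa [Nat.dist_comm] using wt_row n k L

end Mt

namespace Chain

open Mt

variable {S : Type} [Fintype S] [DecidableEq S] (C : Chain S)

/-- The root of the cubic budget. -/
noncomputable def Vq (q : ℕ) (β : S → ℝ) (a : S → ℕ → ℝ) (N : ℕ) (x y : S) : ℝ :=
  cr (6 * C.Ph q β a x y N)

/-- The supremum bound. -/
noncomputable def Tq (q : ℕ) (β : S → ℝ) (a : S → ℕ → ℝ) (N : ℕ) (g m : ℝ) (x y : S) : ℝ :=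
  min (g * C.om q β x y) (min (C.Vq q β a N x y) (m * C.om q β x y))

variable {q : ℕ} {β : S → ℝ} {a : S → ℕ → ℝ} {N : ℕ}

lemma Ph_nonneg (hβ : ∀ z, 0 ≤ β z) (x y : S) (n : ℕ) : 0 ≤ C.Ph q β a x y n :=
  Finset.sum_nonneg fun i _ => mul_nonneg (C.dL_nonneg hβ x y i) (by positivity)

lemma Vq_nonneg (hβ : ∀ z, 0 ≤ β z) (x y : S) : 0 ≤ C.Vq q β a N x y :=
  cr_nonneg (by have := C.Ph_nonneg (q := q) (a := a) hβ x y N; linarith)

lemma Vq_cube (hβ : ∀ z, 0 ≤ β z) (x y : S) : (C.Vq q β a N x y) ^ 3 = 6 * C.Ph q β a x y N :=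
  cr_cube (by have := C.Ph_nonneg (q := q) (a := a) hβ x y N; linarith)

/-- Decomposition of the pairing along one edge, for one level of labels. -/
lemma edge_dec {F : ℕ → ℝ} {A : ℕ → ℝ} (hA : PairBd F N A) (hβ : ∀ z, 0 ≤ β z)
    (ha0 : ∀ z, a z 0 = 0) {g m : ℝ} (hg0 : 0 ≤ g) (hg : ∀ z i, |a z i| ≤ g) (hm0 : 0 ≤ m)
    (hm : ∀ z, ∑ i ∈ range N, |a z (i + 1) - a z i| ≤ m) (L : ℕ) (hL : N ≤ 8 ^ L) (x y : S) :
    |∑ j ∈ range N, F j * (C.Gg q β a x y (j + 1) - C.Gg q β a x y j)|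
      ≤ ∑ ℓ ∈ range (L + 2), lam (C.Tq q β a N g m x y) (C.Vq q β a N x y)
          (m * C.om q β x y) ℓ * A ℓ := by
  have hom := C.om_nonneg (q := q) hβ x y
  have hV := C.Vq_nonneg (q := q) (a := a) (N := N) hβ x y
  have hB : 0 ≤ m * C.om q β x y := mul_nonneg hm0 hom
  have hT : 0 ≤ C.Tq q β a N g m x y :=
    le_min (mul_nonneg hg0 hom) (le_min hV hB)
  have hG0 := C.Gg_zero (q := q) (β := β) ha0 x y
  have hsupV : ∀ i, i ≤ N → |C.Gg q β a x y i| ≤ C.Vq q β a N x y := by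
    intro i hi
    have h1 := C.Ph_budget (q := q) (a := a) hβ x y (Nat.zero_le i)
    have h2 := C.Ph_budget (q := q) (a := a) hβ x y hi
    have h3 : C.Ph q β a x y 0 = 0 := by simp [Ph]
    rw [hG0, sub_zero, h3] at h1
    have h4 : 0 ≤ |C.Gg q β a x y N - C.Gg q β a x y i| ^ 3 := by positivity
    have h5 : |C.Gg q β a x y i| ^ 3 ≤ (C.Vq q β a N x y) ^ 3 := by
      rw [C.Vq_cube hβ]; linarith
    exact le_of_pow_le_pow_left₀ (by norm_num) hV h5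
  have hsupB : ∀ i, i ≤ N → |C.Gg q β a x y i| ≤ m * C.om q β x y := by
    intro i hi
    have h1 := C.Bq_budget (q := q) (a := a) hβ x y (Nat.zero_le i)
    have h2 := C.Bq_budget (q := q) (a := a) hβ x y hi
    have h3 : C.Bq q β a x y 0 = 0 := by simp [Bq]
    rw [hG0, sub_zero, h3, pow_one] at h1
    rw [pow_one] at h2
    have h4 := C.dL_total (q := q) hβ hm x y
    have h5 : 0 ≤ |C.Gg q β a x y N - C.Gg q β a x y i| := abs_nonneg _
    linarith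
  refine dec hA (C.Gg q β a x y) hG0 hT hV hB
    ((min_le_right _ _).trans (min_le_left _ _)) ((min_le_right _ _).trans (min_le_right _ _))
    ?_ (fun n => 6 * C.Ph q β a x y n) ?_ ?_ (C.Bq q β a x y) ?_ ?_ L hL
  · intro i hi
    exact le_min (C.Gg_sup hβ hg x y i) (le_min (hsupV i hi) (hsupB i hi))
  · intro p n hpn _
    exact C.Ph_budget hβ x y hpn
  · have h3 : C.Ph q β a x y 0 = 0 := by simp [Ph]
    rw [C.Vq_cube hβ]
    simp [h3]
  · intro p n hpn _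
    exact C.Bq_budget hβ x y hpn
  · have h3 : C.Bq q β a x y 0 = 0 := by simp [Bq]
    rw [h3, sub_zero, pow_one]
    exact C.dL_total hβ hm x y

/-- Monotonicity of edge sums. -/
lemma edge_mono {h k : S → S → ℝ} (hk : ∀ x y, h x y ≤ k x y) :
    ∑ x, ∑ y, C.pi x * C.P x y * h x y ≤ ∑ x, ∑ y, C.pi x * C.P x y * k x y :=
  Finset.sum_le_sum fun x _ => Finset.sum_le_sum fun y _ =>
    mul_le_mul_of_nonneg_left (hk x y) (mul_nonneg (C.pi_nonneg x) (C.P_nonneg x y))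

/-- The third moment bound for the coefficients of the decomposition. -/
lemma lam_cube_expect (n : ℕ) (hq : 1 ≤ q) (hqn : q ≤ 8 ^ n) (hβ : ∀ z, 0 ≤ β z) (k l : ℕ)
    (hg : ∀ z i, |a z i| ≤ (1 / 2) ^ k) (hm : ∀ z, ∑ i ∈ range N, |a z (i + 1) - a z i| ≤ 2 * 4 ^ k) :
    ∑ x, ∑ y, C.pi x * C.P x y *
        (lam (C.Tq q β a N ((1 / 2) ^ k) (2 * 4 ^ k) x y) (C.Vq q β a N x y)
          ((2 * 4 ^ k) * C.om q β x y) l) ^ 3
      ≤ (2 ^ 9 * 4 ^ n * wt n (Nat.dist k l)) ^ 3 * ∑ z, C.pi z * (β z) ^ 3 := by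
  set X := ∑ z, C.pi z * (β z) ^ 3 with hX
  have hX0 : 0 ≤ X := Finset.sum_nonneg fun z _ => mul_nonneg (C.pi_nonneg z) (pow_nonneg (hβ z) 3)
  have hq1 : (q : ℝ) ≤ 8 ^ n := by exact_mod_cast hqn
  have hq0 : (0 : ℝ) ≤ q := by positivity
  have hqq2 : (q : ℝ) ^ 2 ≤ 64 ^ n := by
    calc (q : ℝ) ^ 2 ≤ (8 ^ n) ^ 2 := pow_le_pow_left₀ hq0 hq1 2
      _ = 64 ^ n := by rw [← pow_mul, mul_comm, pow_mul]; norm_num
  have hqq3 : (q : ℝ) ^ 3 ≤ 512 ^ n := by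
    calc (q : ℝ) ^ 3 ≤ (8 ^ n) ^ 3 := pow_le_pow_left₀ hq0 hq1 3
      _ = 512 ^ n := by rw [← pow_mul, mul_comm, pow_mul]; norm_num
  have hom3 := C.om_cube (q := q) hβ
  have hom3' : ∑ x, ∑ y, C.pi x * C.P x y * (C.om q β x y) ^ 3 ≤ 8 * 512 ^ n * X := by
    refine hom3.trans ?_
    have : 8 * (q : ℝ) ^ 3 ≤ 8 * 512 ^ n := by linarith
    exact mul_le_mul_of_nonneg_right this hX0
  have hB0 : ∀ x y, 0 ≤ ((2 : ℝ) * 4 ^ k) * C.om q β x y := fun x y =>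
    mul_nonneg (by positivity) (C.om_nonneg hβ x y)
  have hT0 : ∀ x y, 0 ≤ C.Tq q β a N ((1 / 2) ^ k) (2 * 4 ^ k) x y := fun x y =>
    le_min (mul_nonneg (by positivity) (C.om_nonneg hβ x y)) (le_min (C.Vq_nonneg hβ x y) (hB0 x y))
  have hlam0 : ∀ x y, 0 ≤ lam (C.Tq q β a N ((1 / 2) ^ k) (2 * 4 ^ k) x y) (C.Vq q β a N x y)
          ((2 * 4 ^ k) * C.om q β x y) l := fun x y =>
    lam_nonneg (hT0 x y) (C.Vq_nonneg hβ x y) (hB0 x y) l
  -- common form of the estimate: reduce to a pointwise cubic comparison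
  have hcubeV : ∀ x y, (lam (C.Tq q β a N ((1 / 2) ^ k) (2 * 4 ^ k) x y) (C.Vq q β a N x y)
          ((2 * 4 ^ k) * C.om q β x y) l) ^ 3 ≤ 3072 * C.Ph q β a x y N := by
    intro x y
    have h1 := lam_le_two (C.Tq q β a N ((1 / 2) ^ k) (2 * 4 ^ k) x y) (C.Vq q β a N x y)
          ((2 * 4 ^ k) * C.om q β x y) l
    have h2 := pow_le_pow_left₀ (hlam0 x y) h1 3
    rw [mul_pow, C.Vq_cube hβ] at h2
    linarith
  have hPh := C.Ph_bound (q := q) (a := a) (N := N) hq hβ (g := (1 / 2) ^ k) (m := 2 * 4 ^ k)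
    (by positivity) hg hm (by positivity)
  have hmg : (2 * 4 ^ k : ℝ) * ((1 / 2) ^ k) ^ 2 = 2 := by
    rw [← pow_mul, mul_comm k 2, pow_mul, mul_assoc, ← mul_pow]
    norm_num
  have hPh' : ∑ x, ∑ y, C.pi x * C.P x y * C.Ph q β a x y N ≤ 40 * 64 ^ n * X := by
    refine hPh.trans ?_
    have e : 20 * (2 * 4 ^ k : ℝ) * ((1 / 2) ^ k) ^ 2 * (q : ℝ) ^ 2 * X
        = 20 * ((2 * 4 ^ k : ℝ) * ((1 / 2) ^ k) ^ 2) * ((q : ℝ) ^ 2 * X) := by ring
    rw [e, hmg]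
    have := mul_le_mul_of_nonneg_right hqq2 hX0
    nlinarith
  have h8 : ((1 : ℝ) / 8) ^ (Nat.dist k l) * 8 ^ (Nat.dist k l) = 1 := by
    rw [← mul_pow]; norm_num
  by_cases hd : Nat.dist k l ≤ n
  · -- plateau
    have hw : wt n (Nat.dist k l) = 1 := by
      unfold wt
      rw [show Nat.dist k l - n = 0 by omega]
      simp
    rw [hw, mul_one]
    calc _ ≤ ∑ x, ∑ y, C.pi x * C.P x y * (3072 * C.Ph q β a x y N) := C.edge_mono hcubeV
      _ = 3072 * ∑ x, ∑ y, C.pi x * C.P x y * C.Ph q β a x y N := by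
          simp only [Finset.mul_sum]
          exact Finset.sum_congr rfl fun x _ => Finset.sum_congr rfl fun y _ => by ring
      _ ≤ 3072 * (40 * 64 ^ n * X) := mul_le_mul_of_nonneg_left hPh' (by norm_num)
      _ ≤ _ := by
          have e : ((2 : ℝ) ^ 9 * 4 ^ n) ^ 3 = 2 ^ 27 * 64 ^ n := by
            have e4 : ((4 : ℝ) ^ n) ^ 3 = 64 ^ n := by
              rw [← pow_mul, mul_comm, pow_mul]; norm_num
            rw [mul_pow, e4]
            norm_num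
          rw [e]
          have hp : (0 : ℝ) ≤ 64 ^ n * X := by positivity
          nlinarith
  · push Not at hd
    have hw : (wt n (Nat.dist k l)) ^ 3 * (1 / 8) ^ n = (1 / 8) ^ (Nat.dist k l) := by
      unfold wt
      rw [← pow_mul, mul_comm _ 3, pow_mul]
      norm_num
      rw [← pow_add, show Nat.dist k l - n + n = Nat.dist k l by omega]
    have hw' : (wt n (Nat.dist k l)) ^ 3 = 8 ^ n * (1 / 8) ^ (Nat.dist k l) := by
      rw [← hw]
      have h88 : (8 : ℝ) ^ n * (1 / 8) ^ n = 1 := by rw [← mul_pow]; norm_num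
      calc (wt n (Nat.dist k l)) ^ 3 = (wt n (Nat.dist k l)) ^ 3 * ((8 : ℝ) ^ n * (1 / 8) ^ n) := by
            rw [h88, mul_one]
        _ = _ := by ring
    have e : ((2 : ℝ) ^ 9 * 4 ^ n * wt n (Nat.dist k l)) ^ 3
        = 2 ^ 27 * 512 ^ n * (1 / 8) ^ (Nat.dist k l) := by
      have e4 : ((4 : ℝ) ^ n) ^ 3 = 64 ^ n := by
        rw [← pow_mul, mul_comm, pow_mul]; norm_num
      have e5 : (512 : ℝ) ^ n = 64 ^ n * 8 ^ n := by
        rw [← mul_pow]; norm_num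
      rw [mul_pow, mul_pow, hw', e4, e5]
      norm_num
      ring
    rw [e]
    have hr : (0 : ℝ) < (1 / 8) ^ (Nat.dist k l) := by positivity
    have hkey : ∀ c : ℝ, 0 ≤ c → c ≤ 2 ^ 24 →
        (∀ x y, (lam (C.Tq q β a N ((1 / 2) ^ k) (2 * 4 ^ k) x y) (C.Vq q β a N x y)
          ((2 * 4 ^ k) * C.om q β x y) l) ^ 3 ≤ c * (1 / 8) ^ (Nat.dist k l) * (C.om q β x y) ^ 3) →
        ∑ x, ∑ y, C.pi x * C.P x y *
        (lam (C.Tq q β a N ((1 / 2) ^ k) (2 * 4 ^ k) x y) (C.Vq q β a N x y)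
          ((2 * 4 ^ k) * C.om q β x y) l) ^ 3
          ≤ 2 ^ 27 * 512 ^ n * (1 / 8) ^ (Nat.dist k l) * X := by
      intro c hc0 hc1 hc
      calc _ ≤ ∑ x, ∑ y, C.pi x * C.P x y * (c * (1 / 8) ^ (Nat.dist k l) * (C.om q β x y) ^ 3) :=
            C.edge_mono hc
        _ = c * (1 / 8) ^ (Nat.dist k l) * ∑ x, ∑ y, C.pi x * C.P x y * (C.om q β x y) ^ 3 := by
            simp only [Finset.mul_sum]
            exact Finset.sum_congr rfl fun x _ => Finset.sum_congr rfl fun y _ => by ring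
        _ ≤ c * (1 / 8) ^ (Nat.dist k l) * (8 * 512 ^ n * X) :=
            mul_le_mul_of_nonneg_left hom3' (by positivity)
        _ ≤ 2 ^ 24 * (1 / 8) ^ (Nat.dist k l) * (8 * 512 ^ n * X) := by
            refine mul_le_mul_of_nonneg_right ?_ (by positivity)
            exact mul_le_mul_of_nonneg_right hc1 hr.le
        _ = _ := by ring
    rcases le_total l k with hlk | hlk
    · -- coarse output
      have hdist : Nat.dist k l = k - l := by
        unfold Nat.dist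
        omega
      refine hkey (2 ^ 9) (by norm_num) (by norm_num) ?_
      intro x y
      have h1 := lam_le_one (C.Tq q β a N ((1 / 2) ^ k) (2 * 4 ^ k) x y) (C.Vq q β a N x y)
          ((2 * 4 ^ k) * C.om q β x y) l
      have h2 : C.Tq q β a N ((1 / 2) ^ k) (2 * 4 ^ k) x y ≤ (1 / 2) ^ k * C.om q β x y :=
        min_le_left _ _
      have h3 : (2 : ℝ) ^ l * (1 / 2) ^ k = (1 / 2) ^ (Nat.dist k l) := by
        rw [hdist]
        obtain ⟨d, rfl⟩ := Nat.exists_eq_add_of_le hlk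
        rw [show l + d - l = d by omega, pow_add, ← mul_assoc, ← mul_pow]
        norm_num
      have h4 : lam (C.Tq q β a N ((1 / 2) ^ k) (2 * 4 ^ k) x y) (C.Vq q β a N x y)
          ((2 * 4 ^ k) * C.om q β x y) l ≤ 8 * ((1 / 2) ^ (Nat.dist k l) * C.om q β x y) := by
        refine h1.trans ?_
        rw [← h3]
        have : (2 : ℝ) ^ l * C.Tq q β a N ((1 / 2) ^ k) (2 * 4 ^ k) x y
            ≤ 2 ^ l * ((1 / 2) ^ k * C.om q β x y) :=
          mul_le_mul_of_nonneg_left h2 (by positivity)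
        calc _ ≤ 8 * ((2 : ℝ) ^ l * ((1 / 2) ^ k * C.om q β x y)) := by linarith
          _ = _ := by ring
      have h5 := pow_le_pow_left₀ (hlam0 x y) h4 3
      refine h5.trans (le_of_eq ?_)
      rw [mul_pow, mul_pow, ← pow_mul, mul_comm _ 3, pow_mul]
      norm_num
      ring
    · -- fine output
      have hdist : Nat.dist k l = l - k := by
        unfold Nat.dist
        omega
      refine hkey (2 ^ 24) (by norm_num) le_rfl ?_
      intro x y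
      have h1 := lam_le_three (C.Tq q β a N ((1 / 2) ^ k) (2 * 4 ^ k) x y) (C.Vq q β a N x y)
          ((2 * 4 ^ k) * C.om q β x y) l
      have h3 : ((1 : ℝ) / 4) ^ l * 4 ^ k = (1 / 4) ^ (Nat.dist k l) := by
        rw [hdist]
        obtain ⟨d, rfl⟩ := Nat.exists_eq_add_of_le hlk
        rw [show k + d - k = d by omega, pow_add]
        have : ((1 : ℝ) / 4) ^ k * 4 ^ k = 1 := by rw [← mul_pow]; norm_num
        calc ((1 : ℝ) / 4) ^ k * (1 / 4) ^ d * 4 ^ k = (((1 : ℝ) / 4) ^ k * 4 ^ k) * (1 / 4) ^ d := by ring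
          _ = _ := by rw [this, one_mul]
      have h4 : lam (C.Tq q β a N ((1 / 2) ^ k) (2 * 4 ^ k) x y) (C.Vq q β a N x y)
          ((2 * 4 ^ k) * C.om q β x y) l ≤ 256 * ((1 / 4) ^ (Nat.dist k l) * C.om q β x y) := by
        refine h1.trans (le_of_eq ?_)
        rw [← h3]
        ring
      have h5 := pow_le_pow_left₀ (hlam0 x y) h4 3
      refine h5.trans ?_
      rw [mul_pow, mul_pow, ← pow_mul, mul_comm _ 3, pow_mul]
      have h6 : (((1 : ℝ) / 4) ^ 3) ^ (Nat.dist k l) ≤ (1 / 8) ^ (Nat.dist k l) :=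
        pow_le_pow_left₀ (by norm_num) (by norm_num) _
      have h7 : 0 ≤ (C.om q β x y) ^ 3 := pow_nonneg (C.om_nonneg hβ x y) 3
      have h8 : (256 : ℝ) ^ 3 = 2 ^ 24 := by norm_num
      rw [h8, mul_assoc]
      refine mul_le_mul_of_nonneg_left ?_ (by norm_num)
      exact mul_le_mul_of_nonneg_right h6 h7

lemma mq_sub_fun (q : ℕ) (h k : S → ℝ) (w : S) :
    C.mq q (fun z => h z - k z) w = C.mq q h w - C.mq q k w := by
  unfold mq
  rw [← Finset.sum_sub_distrib]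
  refine Finset.sum_congr rfl fun s _ => ?_
  unfold av
  rw [← Finset.sum_sub_distrib]
  exact Finset.sum_congr rfl fun z _ => by ring

/-- The duality identity for one level. -/
lemma pairing_identity (q : ℕ) (β : S → ℝ) (a : S → ℕ → ℝ) (N : ℕ) (f : S → ℕ → ℝ) :
    ∑ z, C.pi z * (β z * ∑ j ∈ range N,
        (C.av q (fun w => f w j) z - f z j) * (a z (j + 1) - a z j))
      = -(1 / 2) * ∑ x, ∑ y, C.pi x * C.P x y * ∑ j ∈ range N,
          (f y j - f x j) * (C.Gg q β a x y (j + 1) - C.Gg q β a x y j) := by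
  have hj : ∀ j, ∑ z, C.pi z * (β z * (a z (j + 1) - a z j)) * (C.av q (fun w => f w j) z - f z j)
      = -(1 / 2) * ∑ x, ∑ y, C.pi x * C.P x y *
          ((f y j - f x j) * (C.Gg q β a x y (j + 1) - C.Gg q β a x y j)) := by
    intro j
    rw [C.displacement_dirichlet q (fun z => β z * (a z (j + 1) - a z j)) (fun w => f w j)]
    congr 1
    refine Finset.sum_congr rfl fun x _ => Finset.sum_congr rfl fun y _ => ?_
    have e : ∑ s ∈ range q, (C.av s (fun z => β z * (a z (j + 1) - a z j)) y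
          - C.av s (fun z => β z * (a z (j + 1) - a z j)) x)
        = C.Gg q β a x y (j + 1) - C.Gg q β a x y j := by
      rw [Finset.sum_sub_distrib]
      have e1 : ∀ w, ∑ s ∈ range q, C.av s (fun z => β z * (a z (j + 1) - a z j)) w
          = C.Uu q β a (j + 1) w - C.Uu q β a j w := by
        intro w
        unfold Uu
        rw [← C.mq_sub_fun]
        unfold mq
        refine Finset.sum_congr rfl fun s _ => ?_
        congr 1
        funext z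
        ring
      rw [e1, e1]
      unfold Gg
      ring
    rw [e]
    ring
  calc ∑ z, C.pi z * (β z * ∑ j ∈ range N,
        (C.av q (fun w => f w j) z - f z j) * (a z (j + 1) - a z j))
      = ∑ j ∈ range N, ∑ z, C.pi z * (β z * (a z (j + 1) - a z j))
          * (C.av q (fun w => f w j) z - f z j) := by
        rw [Finset.sum_comm]
        refine Finset.sum_congr rfl fun z _ => ?_
        rw [Finset.mul_sum, Finset.mul_sum]
        refine Finset.sum_congr rfl fun j _ => ?_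
        ring
    _ = ∑ j ∈ range N, -(1 / 2) * ∑ x, ∑ y, C.pi x * C.P x y *
          ((f y j - f x j) * (C.Gg q β a x y (j + 1) - C.Gg q β a x y j)) :=
        Finset.sum_congr rfl fun j _ => hj j
    _ = _ := by
        rw [← Finset.mul_sum]
        congr 1
        rw [Finset.sum_comm]
        refine Finset.sum_congr rfl fun x _ => ?_
        rw [Finset.sum_comm]
        refine Finset.sum_congr rfl fun y _ => ?_
        rw [Finset.mul_sum]

/-- The core estimate: the pairing of the mean displacement against labels on many levels. -/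
theorem core (n : ℕ) {q : ℕ} (hq : 1 ≤ q) (hqn : q ≤ 8 ^ n) {N L L₂ : ℕ} (β : ℕ → S → ℝ)
    (a : ℕ → S → ℕ → ℝ) (hβ : ∀ ℓ z, 0 ≤ β ℓ z) (ha0 : ∀ ℓ z, a ℓ z 0 = 0)
    (hag : ∀ ℓ z i, |a ℓ z i| ≤ (1 / 2) ^ ℓ)
    (ham : ∀ ℓ z, ∑ i ∈ range N, |a ℓ z (i + 1) - a ℓ z i| ≤ 2 * 4 ^ ℓ)
    (f : S → ℕ → ℝ) (B : S → S → ℕ → ℝ) (hB : ∀ x y ℓ, 0 ≤ B x y ℓ)
    (hpair : ∀ x y, PairBd (fun j => f y j - f x j) N (fun ℓ => (B x y ℓ) ^ 2))
    (hL₂ : N ≤ 8 ^ L₂) {ρ σ : ℝ} (hρ : 0 < ρ) (hσ : 0 < σ)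
    (hX : ∑ ℓ ∈ range L, ∑ z, C.pi z * (β ℓ z) ^ 3 ≤ ρ ^ 3)
    (hW : ∑ k ∈ range (L₂ + 2), ∑ x, ∑ y, C.pi x * C.P x y * (B x y k) ^ 3 ≤ σ ^ 3) :
    ∑ z, C.pi z * ∑ ℓ ∈ range L, β ℓ z * ∑ j ∈ range N,
        (C.av q (fun w => f w j) z - f z j) * (a ℓ z (j + 1) - a ℓ z j)
      ≤ (2 ^ 8 * 4 ^ n * (2 * n + 4)) * (ρ * σ ^ 2) := by
  set x : ℕ → ℝ := fun ℓ => ∑ z, C.pi z * (β ℓ z) ^ 3 with hx
  set W : ℕ → ℝ := fun k => ∑ u, ∑ v, C.pi u * C.P u v * (B u v k) ^ 3 with hWdef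
  have hx0 : ∀ ℓ, 0 ≤ x ℓ := fun ℓ =>
    Finset.sum_nonneg fun z _ => mul_nonneg (C.pi_nonneg z) (pow_nonneg (hβ ℓ z) 3)
  have hW0 : ∀ k, 0 ≤ W k := fun k =>
    Finset.sum_nonneg fun u _ => Finset.sum_nonneg fun v _ =>
      mul_nonneg (mul_nonneg (C.pi_nonneg u) (C.P_nonneg u v)) (pow_nonneg (hB u v k) 3)
  let lamE : ℕ → S → S → ℕ → ℝ := fun ℓ u v k =>
    lam (C.Tq q (β ℓ) (a ℓ) N ((1 / 2) ^ ℓ) (2 * 4 ^ ℓ) u v) (C.Vq q (β ℓ) (a ℓ) N u v)
      ((2 * 4 ^ ℓ) * C.om q (β ℓ) u v) k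
  have hlam0 : ∀ ℓ u v k, 0 ≤ lamE ℓ u v k := by
    intro ℓ u v k
    have hom := C.om_nonneg (q := q) (hβ ℓ) u v
    have hV := C.Vq_nonneg (q := q) (a := a ℓ) (N := N) (hβ ℓ) u v
    have hBB : (0 : ℝ) ≤ (2 * 4 ^ ℓ) * C.om q (β ℓ) u v := mul_nonneg (by positivity) hom
    exact lam_nonneg (le_min (mul_nonneg (by positivity) hom) (le_min hV hBB)) hV hBB k
  have hcube : ∀ ℓ k, ∑ u, ∑ v, C.pi u * C.P u v * (lamE ℓ u v k) ^ 3
      ≤ (2 ^ 9 * 4 ^ n * wt n (Nat.dist ℓ k)) ^ 3 * x ℓ := fun ℓ k =>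
    C.lam_cube_expect n hq hqn (hβ ℓ) ℓ k (hag ℓ) (ham ℓ)
  -- the pointwise decomposition along edges
  have hedge : ∀ ℓ u v, -∑ j ∈ range N, (f v j - f u j)
        * (C.Gg q (β ℓ) (a ℓ) u v (j + 1) - C.Gg q (β ℓ) (a ℓ) u v j)
      ≤ ∑ k ∈ range (L₂ + 2), lamE ℓ u v k * (B u v k) ^ 2 := by
    intro ℓ u v
    have := C.edge_dec (q := q) (hpair u v) (hβ ℓ) (ha0 ℓ) (g := (1 / 2) ^ ℓ) (m := 2 * 4 ^ ℓ)
      (by positivity) (hag ℓ) (by positivity) (ham ℓ) L₂ hL₂ u v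
    exact (neg_le_abs _).trans this
  -- reduction to the double sum
  have hstart : ∑ z, C.pi z * ∑ ℓ ∈ range L, β ℓ z * ∑ j ∈ range N,
        (C.av q (fun w => f w j) z - f z j) * (a ℓ z (j + 1) - a ℓ z j)
      ≤ (1 / 2) * ∑ ℓ ∈ range L, ∑ k ∈ range (L₂ + 2),
          ∑ u, ∑ v, C.pi u * C.P u v * (lamE ℓ u v k * (B u v k) ^ 2) := by
    have e : ∑ z, C.pi z * ∑ ℓ ∈ range L, β ℓ z * ∑ j ∈ range N,
        (C.av q (fun w => f w j) z - f z j) * (a ℓ z (j + 1) - a ℓ z j)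
        = ∑ ℓ ∈ range L, ∑ z, C.pi z * (β ℓ z * ∑ j ∈ range N,
        (C.av q (fun w => f w j) z - f z j) * (a ℓ z (j + 1) - a ℓ z j)) := by
      rw [Finset.sum_comm]
      refine Finset.sum_congr rfl fun z _ => ?_
      rw [Finset.mul_sum]
    rw [e, Finset.mul_sum]
    refine Finset.sum_le_sum fun ℓ _ => ?_
    rw [C.pairing_identity q (β ℓ) (a ℓ) N f]
    have h2 : -∑ u, ∑ v, C.pi u * C.P u v * ∑ j ∈ range N,
          (f v j - f u j) * (C.Gg q (β ℓ) (a ℓ) u v (j + 1) - C.Gg q (β ℓ) (a ℓ) u v j)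
        ≤ ∑ u, ∑ v, C.pi u * C.P u v * ∑ k ∈ range (L₂ + 2), lamE ℓ u v k * (B u v k) ^ 2 := by
      rw [← Finset.sum_neg_distrib]
      refine Finset.sum_le_sum fun u _ => ?_
      rw [← Finset.sum_neg_distrib]
      refine Finset.sum_le_sum fun v _ => ?_
      rw [← mul_neg]
      exact mul_le_mul_of_nonneg_left (hedge ℓ u v) (mul_nonneg (C.pi_nonneg u) (C.P_nonneg u v))
    have h3 : ∑ u, ∑ v, C.pi u * C.P u v * ∑ k ∈ range (L₂ + 2), lamE ℓ u v k * (B u v k) ^ 2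
        = ∑ k ∈ range (L₂ + 2), ∑ u, ∑ v, C.pi u * C.P u v * (lamE ℓ u v k * (B u v k) ^ 2) := by
      have e1 : ∀ u, ∑ v, C.pi u * C.P u v * ∑ k ∈ range (L₂ + 2), lamE ℓ u v k * (B u v k) ^ 2
          = ∑ k ∈ range (L₂ + 2), ∑ v, C.pi u * C.P u v * (lamE ℓ u v k * (B u v k) ^ 2) := by
        intro u
        simp only [Finset.mul_sum]
        exact Finset.sum_comm
      rw [Finset.sum_congr rfl fun u _ => e1 u, Finset.sum_comm]
    rw [← h3]
    linarith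
  -- the Young inequality for each pair of levels
  set M₀ : ℝ := 2 ^ 9 * 4 ^ n with hM₀
  have hM₀pos : 0 < M₀ := by positivity
  have hwtpos : ∀ j, 0 < wt n j := fun j => by unfold wt; positivity
  have hpairbound : ∀ ℓ k, ∑ u, ∑ v, C.pi u * C.P u v * (lamE ℓ u v k * (B u v k) ^ 2)
      ≤ (M₀ * σ ^ 2 / (3 * ρ ^ 2)) * (wt n (Nat.dist ℓ k) * x ℓ)
        + ((2 / 3) * M₀ * ρ / σ) * (wt n (Nat.dist ℓ k) * W k) := by
    intro ℓ k
    set M : ℝ := M₀ * wt n (Nat.dist ℓ k) with hMdef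
    have hMpos : 0 < M := mul_pos hM₀pos (hwtpos _)
    calc ∑ u, ∑ v, C.pi u * C.P u v * (lamE ℓ u v k * (B u v k) ^ 2)
        ≤ ∑ u, ∑ v, C.pi u * C.P u v * (σ ^ 2 * (lamE ℓ u v k) ^ 3 / (3 * M ^ 2 * ρ ^ 2)
            + (2 / 3) * M * ρ * (B u v k) ^ 3 / σ) :=
          C.edge_mono fun u v => young_poly (hlam0 ℓ u v k) (hB u v k) hMpos hρ hσ
      _ = (σ ^ 2 / (3 * M ^ 2 * ρ ^ 2)) * (∑ u, ∑ v, C.pi u * C.P u v * (lamE ℓ u v k) ^ 3)
            + ((2 / 3) * M * ρ / σ) * W k := by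
          simp only [hWdef, Finset.mul_sum, ← Finset.sum_add_distrib]
          refine Finset.sum_congr rfl fun u _ => Finset.sum_congr rfl fun v _ => ?_
          ring
      _ ≤ (σ ^ 2 / (3 * M ^ 2 * ρ ^ 2)) * (M ^ 3 * x ℓ) + ((2 / 3) * M * ρ / σ) * W k := by
          refine add_le_add (mul_le_mul_of_nonneg_left (hcube ℓ k) (by positivity)) le_rfl
      _ = _ := by
          rw [hMdef]
          field_simp
  -- summation
  have hrow : ∀ ℓ, ∑ k ∈ range (L₂ + 2), wt n (Nat.dist ℓ k) ≤ 2 * n + 4 := fun ℓ => wt_row n ℓ _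
  have hcol : ∀ k, ∑ ℓ ∈ range L, wt n (Nat.dist ℓ k) ≤ 2 * n + 4 := fun k => wt_col n k _
  have hs1 : ∑ ℓ ∈ range L, ∑ k ∈ range (L₂ + 2), wt n (Nat.dist ℓ k) * x ℓ
      ≤ (2 * n + 4) * ρ ^ 3 := by
    calc _ = ∑ ℓ ∈ range L, (∑ k ∈ range (L₂ + 2), wt n (Nat.dist ℓ k)) * x ℓ := by
          refine Finset.sum_congr rfl fun ℓ _ => ?_
          rw [Finset.sum_mul]
      _ ≤ ∑ ℓ ∈ range L, (2 * n + 4) * x ℓ :=
          Finset.sum_le_sum fun ℓ _ => mul_le_mul_of_nonneg_right (hrow ℓ) (hx0 ℓ)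
      _ = (2 * n + 4) * ∑ ℓ ∈ range L, x ℓ := by rw [Finset.mul_sum]
      _ ≤ _ := mul_le_mul_of_nonneg_left hX (by positivity)
  have hs2 : ∑ ℓ ∈ range L, ∑ k ∈ range (L₂ + 2), wt n (Nat.dist ℓ k) * W k
      ≤ (2 * n + 4) * σ ^ 3 := by
    rw [Finset.sum_comm]
    calc _ = ∑ k ∈ range (L₂ + 2), (∑ ℓ ∈ range L, wt n (Nat.dist ℓ k)) * W k := by
          refine Finset.sum_congr rfl fun k _ => ?_
          rw [Finset.sum_mul]
      _ ≤ ∑ k ∈ range (L₂ + 2), (2 * n + 4) * W k :=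
          Finset.sum_le_sum fun k _ => mul_le_mul_of_nonneg_right (hcol k) (hW0 k)
      _ = (2 * n + 4) * ∑ k ∈ range (L₂ + 2), W k := by rw [Finset.mul_sum]
      _ ≤ _ := mul_le_mul_of_nonneg_left hW (by positivity)
  have htotal : ∑ ℓ ∈ range L, ∑ k ∈ range (L₂ + 2),
          ∑ u, ∑ v, C.pi u * C.P u v * (lamE ℓ u v k * (B u v k) ^ 2)
      ≤ (M₀ * σ ^ 2 / (3 * ρ ^ 2)) * ((2 * n + 4) * ρ ^ 3)
        + ((2 / 3) * M₀ * ρ / σ) * ((2 * n + 4) * σ ^ 3) := by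
    calc _ ≤ ∑ ℓ ∈ range L, ∑ k ∈ range (L₂ + 2),
          ((M₀ * σ ^ 2 / (3 * ρ ^ 2)) * (wt n (Nat.dist ℓ k) * x ℓ)
        + ((2 / 3) * M₀ * ρ / σ) * (wt n (Nat.dist ℓ k) * W k)) :=
          Finset.sum_le_sum fun ℓ _ => Finset.sum_le_sum fun k _ => hpairbound ℓ k
      _ = (M₀ * σ ^ 2 / (3 * ρ ^ 2)) * ∑ ℓ ∈ range L, ∑ k ∈ range (L₂ + 2), wt n (Nat.dist ℓ k) * x ℓ
        + ((2 / 3) * M₀ * ρ / σ) * ∑ ℓ ∈ range L, ∑ k ∈ range (L₂ + 2), wt n (Nat.dist ℓ k) * W k := by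
          simp only [Finset.mul_sum, Finset.sum_add_distrib]
      _ ≤ _ := add_le_add (mul_le_mul_of_nonneg_left hs1 (by positivity))
          (mul_le_mul_of_nonneg_left hs2 (by positivity))
  have hfinal : (M₀ * σ ^ 2 / (3 * ρ ^ 2)) * ((2 * n + 4) * ρ ^ 3)
        + ((2 / 3) * M₀ * ρ / σ) * ((2 * n + 4) * σ ^ 3)
      = M₀ * (2 * n + 4) * (ρ * σ ^ 2) := by
    field_simp
    ring
  have hM : (2 : ℝ) ^ 8 * 4 ^ n * (2 * n + 4) * (ρ * σ ^ 2)
      = (1 / 2) * (M₀ * (2 * n + 4) * (ρ * σ ^ 2)) := by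
    rw [hM₀]; norm_num; ring
  rw [hM]
  rw [hfinal] at htotal
  linarith

end Chain

end Vale.Agent.Lib.P125
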