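import Mathlib

/-!
Greedy step approximation of a real sequence, and the decomposition of a pairing into atoms
with few jumps and small height.
-/

namespace Vale.Agent.Lib.P125.Mt

open Finset

/-- Elementary cubic inequality: the displacement of a sequence over an interval is controlled by
its increments weighted by the squares of its values. -/
lemma cube_interval (u : ℕ → ℝ) {p n : ℕ} (h : p ≤ n) :
    |u n - u p| ^ 3 ≤ 6 * ∑ i ∈ Ico p n, |u (i + 1) - u i| * ((u i) ^ 2 + (u (i + 1)) ^ 2) := by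
  have h1 : ∀ x y : ℝ, |x - y| ^ 3 ≤ 4 * |x ^ 3 - y ^ 3| := by
    intro x y
    have e : x ^ 3 - y ^ 3 = (x - y) * (x ^ 2 + x * y + y ^ 2) := by ring
    have e2 : 0 ≤ x ^ 2 + x * y + y ^ 2 := by nlinarith [sq_nonneg (x + y), sq_nonneg x, sq_nonneg y]
    rw [e, abs_mul, abs_of_nonneg e2]
    have e3 : |x - y| ^ 3 = |x - y| * (x - y) ^ 2 := by
      rw [pow_succ, mul_comm, sq_abs]
    rw [e3]
    have e4 : (x - y) ^ 2 ≤ 4 * (x ^ 2 + x * y + y ^ 2) := by nlinarith [sq_nonneg (x + y)]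
    nlinarith [abs_nonneg (x - y)]
  have h2 : ∀ x y : ℝ, |y ^ 3 - x ^ 3| ≤ (3 / 2) * (|y - x| * (x ^ 2 + y ^ 2)) := by
    intro x y
    have e : y ^ 3 - x ^ 3 = (y - x) * (x ^ 2 + x * y + y ^ 2) := by ring
    have e2 : 0 ≤ x ^ 2 + x * y + y ^ 2 := by nlinarith [sq_nonneg (x + y), sq_nonneg x, sq_nonneg y]
    rw [e, abs_mul, abs_of_nonneg e2]
    have e4 : x ^ 2 + x * y + y ^ 2 ≤ (3 / 2) * (x ^ 2 + y ^ 2) := by nlinarith [sq_nonneg (x - y)]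
    nlinarith [abs_nonneg (y - x)]
  have h3 : |(u n) ^ 3 - (u p) ^ 3|
      ≤ ∑ i ∈ Ico p n, (3 / 2) * (|u (i + 1) - u i| * ((u i) ^ 2 + (u (i + 1)) ^ 2)) := by
    induction n, h using Nat.le_induction with
    | base => simp
    | succ n hn ih =>
      rw [Finset.sum_Ico_succ_top hn]
      have := abs_sub_le ((u (n + 1)) ^ 3) ((u n) ^ 3) ((u p) ^ 3)
      have h4 := h2 (u n) (u (n + 1))
      linarith
  have h4 := h1 (u n) (u p)
  rw [Finset.mul_sum]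
  rw [← Finset.mul_sum] at h3
  rw [← Finset.mul_sum]
  linarith

/-- The greedy step function with threshold `δ`. -/
noncomputable def gr (u : ℕ → ℝ) (δ : ℝ) : ℕ → ℝ
  | 0 => u 0
  | n + 1 => if δ < |u (n + 1) - gr u δ n| then u (n + 1) else gr u δ n

/-- Number of jumps of `D` among the first `N` steps. -/
noncomputable def jc (D : ℕ → ℝ) (N : ℕ) : ℕ :=
  ((range N).filter (fun j => D (j + 1) ≠ D j)).card

lemma jc_succ (D : ℕ → ℝ) (N : ℕ) :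
    jc D (N + 1) = jc D N + (if D (N + 1) ≠ D N then 1 else 0) := by
  unfold jc
  rw [Finset.range_add_one, Finset.filter_insert]
  split_ifs with h
  · rw [Finset.card_insert_of_notMem]
    simp
  · simp_all

lemma gr_err (u : ℕ → ℝ) {δ : ℝ} (hδ : 0 ≤ δ) (n : ℕ) : |u n - gr u δ n| ≤ δ := by
  cases n with
  | zero => simpa [gr] using hδ
  | succ n =>
    rw [gr]
    split_ifs with h
    · simpa using hδ
    · exact not_lt.mp h

/-- The counting invariant of the greedy construction. -/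
lemma gr_spec (u : ℕ → ℝ) {δ : ℝ} (hδ : 0 < δ) (W : ℝ) (Ψ : ℕ → ℝ) (N : ℕ)
    (hΨ : ∀ p n, p ≤ n → n ≤ N → δ < |u n - u p| → W ≤ Ψ n - Ψ p) :
    ∀ n, n ≤ N → ∃ p, p ≤ n ∧ gr u δ n = u p ∧ (jc (gr u δ) n : ℝ) * W ≤ Ψ p - Ψ 0 := by
  intro n
  induction n with
  | zero =>
    intro _
    refine ⟨0, le_refl _, rfl, ?_⟩
    simp [jc]
  | succ n ih =>
    intro hn
    obtain ⟨p, hp, hgr, hc⟩ := ih (by omega)
    by_cases hcut : δ < |u (n + 1) - gr u δ n|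
    · refine ⟨n + 1, le_refl _, by rw [gr, if_pos hcut], ?_⟩
      have hne : gr u δ (n + 1) ≠ gr u δ n := by
        rw [gr, if_pos hcut]
        intro e
        rw [e, sub_self, abs_zero] at hcut
        linarith
      rw [jc_succ, if_pos hne]
      push_cast
      have := hΨ p (n + 1) (by omega) hn (by rwa [← hgr])
      nlinarith
    · refine ⟨p, by omega, by rw [gr, if_neg hcut, hgr], ?_⟩
      have hne : ¬ (gr u δ (n + 1) ≠ gr u δ n) := by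
        rw [gr, if_neg hcut]
        simp
      rw [jc_succ, if_neg hne]
      simpa using hc

/-- One step approximation with a budget of exponent `k`. -/
lemma step_approx (u : ℕ → ℝ) (hu0 : u 0 = 0) (N k : ℕ) (hk : k ≠ 0) (Ψ : ℕ → ℝ)
    (hb : ∀ p n, p ≤ n → n ≤ N → |u n - u p| ^ k ≤ Ψ n - Ψ p) {V : ℝ} (hV : 0 ≤ V)
    (hV2 : Ψ N - Ψ 0 ≤ V ^ k) {θ : ℝ} (hθ : 0 < θ) (ℓ : ℕ) (hθk : θ ^ k = (1 / 8) ^ ℓ) :
    ∃ s : ℕ → ℝ, s 0 = 0 ∧ (∀ i, i ≤ N → |u i - s i| ≤ V * θ) ∧ jc s N ≤ 8 ^ ℓ ∧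
      ∀ i, i ≤ N → ∃ p, p ≤ i ∧ s i = u p := by
  have hmono : ∀ n, n ≤ N → Ψ n - Ψ 0 ≤ V ^ k := by
    intro n hn
    have h1 := hb n N hn (le_refl _)
    have h2 : 0 ≤ |u N - u n| ^ k := by positivity
    linarith
  rcases hV.eq_or_lt with hV0 | hVpos
  · -- `V = 0`
    refine ⟨fun _ => 0, rfl, ?_, ?_, ?_⟩
    · intro i hi
      have h1 := hb 0 i (Nat.zero_le _) hi
      have h2 := hmono i hi
      rw [← hV0, zero_pow hk] at h2
      have h3 : |u i - u 0| ^ k ≤ 0 := by linarith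
      have h4 : |u i - u 0| ^ k = 0 := le_antisymm h3 (by positivity)
      have h5 := pow_eq_zero_iff hk |>.mp h4
      rw [hu0, sub_zero] at h5
      rw [← hV0]
      simp [h5]
    · simp [jc]
    · intro i _
      exact ⟨0, Nat.zero_le _, hu0.symm⟩
  · set δ := V * θ with hδdef
    have hδ : 0 < δ := mul_pos hVpos hθ
    have hcount : ∀ n, n ≤ N → ∃ p, p ≤ n ∧ gr u δ n = u p ∧
        (jc (gr u δ) n : ℝ) * δ ^ k ≤ Ψ p - Ψ 0 := by
      refine gr_spec u hδ (δ ^ k) Ψ N ?_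
      intro p n hpn hn hlt
      have := hb p n hpn hn
      have h2 : δ ^ k ≤ |u n - u p| ^ k := pow_le_pow_left₀ hδ.le hlt.le k
      linarith
    refine ⟨gr u δ, ?_, fun i _ => gr_err u hδ.le i, ?_, ?_⟩
    · simp [gr, hu0]
    · obtain ⟨p, hp, _, hc⟩ := hcount N (le_refl _)
      have h1 : (jc (gr u δ) N : ℝ) * δ ^ k ≤ V ^ k := hc.trans (hmono p hp)
      rw [hδdef, mul_pow, hθk] at h1
      have h2 : 0 < V ^ k := pow_pos hVpos k
      have h3 : (jc (gr u δ) N : ℝ) * (1 / 8) ^ ℓ ≤ 1 := by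
        have : (jc (gr u δ) N : ℝ) * (V ^ k * (1 / 8) ^ ℓ) = V ^ k * ((jc (gr u δ) N : ℝ) * (1 / 8) ^ ℓ) := by
          ring
        rw [this] at h1
        by_contra hcon
        push Not at hcon
        nlinarith
      have h4 : (jc (gr u δ) N : ℝ) ≤ 8 ^ ℓ := by
        have h5 : ((1 : ℝ) / 8) ^ ℓ * 8 ^ ℓ = 1 := by
          rw [← mul_pow]; norm_num
        have h6 : (0 : ℝ) < 8 ^ ℓ := by positivity
        calc (jc (gr u δ) N : ℝ) = (jc (gr u δ) N : ℝ) * (1 / 8) ^ ℓ * 8 ^ ℓ := by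
              rw [mul_assoc, h5, mul_one]
          _ ≤ 1 * 8 ^ ℓ := mul_le_mul_of_nonneg_right h3 h6.le
          _ = 8 ^ ℓ := one_mul _
      exact_mod_cast h4
    · intro i hi
      obtain ⟨p, hp, hs, _⟩ := hcount i hi
      exact ⟨p, hp, hs⟩

/-- The bound on pairings against normalized step functions. -/
def PairBd (F : ℕ → ℝ) (N : ℕ) (A : ℕ → ℝ) : Prop :=
  ∀ (ℓ : ℕ) (D : ℕ → ℝ), D 0 = 0 → (∀ i, i ≤ N → |D i| ≤ (1 / 2) ^ ℓ) → jc D N ≤ 8 ^ ℓ →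
    |∑ j ∈ range N, F j * (D (j + 1) - D j)| ≤ A ℓ

lemma PairBd.nonneg {F : ℕ → ℝ} {N : ℕ} {A : ℕ → ℝ} (h : PairBd F N A) (ℓ : ℕ) : 0 ≤ A ℓ := by
  have := h ℓ (fun _ => 0) rfl (fun i _ => by simp) (by simp [jc])
  exact (abs_nonneg _).trans this

lemma PairBd.scale {F : ℕ → ℝ} {N : ℕ} {A : ℕ → ℝ} (hA : PairBd F N A) (ℓ : ℕ) (D : ℕ → ℝ)
    (hD0 : D 0 = 0) {h : ℝ} (hh : 0 ≤ h) (hD : ∀ i, i ≤ N → |D i| ≤ h) (hc : jc D N ≤ 8 ^ ℓ) :
    |∑ j ∈ range N, F j * (D (j + 1) - D j)| ≤ h * 2 ^ ℓ * A ℓ := by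
  rcases hh.eq_or_lt with h0 | hpos
  · have hz : ∀ i, i ≤ N → D i = 0 := by
      intro i hi
      have := hD i hi
      rw [← h0] at this
      exact abs_nonpos_iff.mp this
    have : ∑ j ∈ range N, F j * (D (j + 1) - D j) = 0 := by
      refine Finset.sum_eq_zero fun j hj => ?_
      have hj' := Finset.mem_range.mp hj
      rw [hz j (by omega), hz (j + 1) (by omega)]
      ring
    rw [this, ← h0]
    simp
  · have hτ : (0 : ℝ) < (1 / 2) ^ ℓ / h := by positivity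
    set τ := ((1 : ℝ) / 2) ^ ℓ / h with hτdef
    have key := hA ℓ (fun i => τ * D i) (by simp [hD0]) (by
      intro i hi
      rw [abs_mul, abs_of_pos hτ]
      calc τ * |D i| ≤ τ * h := mul_le_mul_of_nonneg_left (hD i hi) hτ.le
        _ = (1 / 2) ^ ℓ := by rw [hτdef]; field_simp) (by
      have : jc (fun i => τ * D i) N = jc D N := by
        unfold jc
        congr 1
        ext j
        simp only [Finset.mem_filter, Finset.mem_range, ne_eq]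
        constructor
        · rintro ⟨a, b⟩
          exact ⟨a, fun e => b (by rw [e])⟩
        · rintro ⟨a, b⟩
          exact ⟨a, fun e => b (mul_left_cancel₀ hτ.ne' e)⟩
      rw [this]; exact hc)
    have e : ∑ j ∈ range N, F j * (τ * D (j + 1) - τ * D j)
        = τ * ∑ j ∈ range N, F j * (D (j + 1) - D j) := by
      rw [Finset.mul_sum]
      exact Finset.sum_congr rfl fun j _ => by ring
    simp only [e] at key
    rw [abs_mul, abs_of_pos hτ] at key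
    have h2 : (2 : ℝ) ^ ℓ * (1 / 2) ^ ℓ = 1 := by rw [← mul_pow]; norm_num
    have h3 : h * 2 ^ ℓ * τ = 1 := by
      rw [hτdef]
      field_simp
      rw [← mul_pow]; norm_num
    calc |∑ j ∈ range N, F j * (D (j + 1) - D j)|
        = (h * 2 ^ ℓ) * (τ * |∑ j ∈ range N, F j * (D (j + 1) - D j)|) := by
          rw [← mul_assoc, h3, one_mul]
      _ ≤ h * 2 ^ ℓ * A ℓ := mul_le_mul_of_nonneg_left key (by positivity)

/-- The coefficient of level `ℓ` in the atomic decomposition. -/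
noncomputable def lam (T V B : ℝ) (ℓ : ℕ) : ℝ :=
  8 * min (2 ^ ℓ * T) (min V (16 * (1 / 4) ^ ℓ * B))

lemma lam_nonneg {T V B : ℝ} (hT : 0 ≤ T) (hV : 0 ≤ V) (hB : 0 ≤ B) (ℓ : ℕ) : 0 ≤ lam T V B ℓ := by
  unfold lam
  have h1 : 0 ≤ 2 ^ ℓ * T := by positivity
  have h2 : 0 ≤ (16 : ℝ) * (1 / 4) ^ ℓ * B := by positivity
  have := le_min h1 (le_min hV h2)
  linarith

/-- The error level of the approximation at level `ℓ`. -/
noncomputable def Tl (T V B : ℝ) (ℓ : ℕ) : ℝ :=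
  min T (min (V * (1 / 2) ^ ℓ) (B * (1 / 8) ^ ℓ))

lemma Tl_nonneg {T V B : ℝ} (hT : 0 ≤ T) (hV : 0 ≤ V) (hB : 0 ≤ B) (ℓ : ℕ) : 0 ≤ Tl T V B ℓ := by
  unfold Tl
  exact le_min hT (le_min (by positivity) (by positivity))

lemma Tl_succ_le {T V B : ℝ} (hV : 0 ≤ V) (hB : 0 ≤ B) (ℓ : ℕ) :
    Tl T V B (ℓ + 1) ≤ Tl T V B ℓ := by
  unfold Tl
  refine min_le_min le_rfl (min_le_min ?_ ?_)
  · rw [pow_succ]
    have : (0 : ℝ) ≤ V * (1 / 2) ^ ℓ := by positivity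
    nlinarith
  · rw [pow_succ]
    have : (0 : ℝ) ≤ B * (1 / 8) ^ ℓ := by positivity
    nlinarith

lemma level_approx (u : ℕ → ℝ) (hu0 : u 0 = 0) (N : ℕ) {T V B : ℝ} (hT : 0 ≤ T) (hV : 0 ≤ V)
    (hB : 0 ≤ B) (hsup : ∀ i, i ≤ N → |u i| ≤ T) (Ψ₃ : ℕ → ℝ)
    (h3 : ∀ p n, p ≤ n → n ≤ N → |u n - u p| ^ 3 ≤ Ψ₃ n - Ψ₃ p) (hV3 : Ψ₃ N - Ψ₃ 0 ≤ V ^ 3)
    (Ψ₁ : ℕ → ℝ) (h1 : ∀ p n, p ≤ n → n ≤ N → |u n - u p| ^ 1 ≤ Ψ₁ n - Ψ₁ p)
    (hB1 : Ψ₁ N - Ψ₁ 0 ≤ B ^ 1) (ℓ : ℕ) :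
    ∃ s : ℕ → ℝ, s 0 = 0 ∧ (∀ i, i ≤ N → |u i - s i| ≤ Tl T V B ℓ) ∧ jc s N ≤ 8 ^ ℓ ∧
      ∀ i, i ≤ N → |s i| ≤ T := by
  have hfrom : ∀ s : ℕ → ℝ, (∀ i, i ≤ N → ∃ p, p ≤ i ∧ s i = u p) → ∀ i, i ≤ N → |s i| ≤ T := by
    intro s hs i hi
    obtain ⟨p, hp, e⟩ := hs i hi
    rw [e]
    exact hsup p (by omega)
  unfold Tl
  rcases le_total T (min (V * (1 / 2) ^ ℓ) (B * (1 / 8) ^ ℓ)) with hc | hc
  · rw [min_eq_left hc]
    refine ⟨fun _ => 0, rfl, ?_, by simp [jc], fun i _ => by simpa using hT⟩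
    intro i hi
    simpa using hsup i hi
  · rw [min_eq_right hc]
    rcases le_total (V * (1 / 2) ^ ℓ) (B * (1 / 8) ^ ℓ) with hc2 | hc2
    · rw [min_eq_left hc2]
      obtain ⟨s, a, b, c, d⟩ := step_approx u hu0 N 3 (by norm_num) Ψ₃ h3 hV hV3
        (θ := (1 / 2) ^ ℓ) (by positivity) ℓ (by rw [← pow_mul, mul_comm, pow_mul]; norm_num)
      exact ⟨s, a, b, c, hfrom s d⟩
    · rw [min_eq_right hc2]
      obtain ⟨s, a, b, c, d⟩ := step_approx u hu0 N 1 (by norm_num) Ψ₁ h1 hB hB1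
        (θ := (1 / 8) ^ ℓ) (by positivity) ℓ (by simp)
      exact ⟨s, a, b, c, hfrom s d⟩

lemma jc_sub_le (D E : ℕ → ℝ) (N : ℕ) :
    jc (fun i => D i - E i) N ≤ jc D N + jc E N := by
  unfold jc
  refine le_trans (Finset.card_le_card ?_) (Finset.card_union_le _ _)
  intro j hj
  simp only [Finset.mem_filter, Finset.mem_range, Finset.mem_union] at hj ⊢
  by_cases h : D (j + 1) ≠ D j
  · exact Or.inl ⟨hj.1, h⟩
  · right
    refine ⟨hj.1, fun e => hj.2 ?_⟩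
    have : D (j + 1) = D j := not_not.mp h
    rw [this, e]

lemma jc_le (D : ℕ → ℝ) (N : ℕ) : jc D N ≤ N := by
  unfold jc
  calc _ ≤ (range N).card := Finset.card_filter_le _ _
    _ = N := Finset.card_range N

/-- Decomposition of a pairing into atoms. -/
lemma dec {F : ℕ → ℝ} {N : ℕ} {A : ℕ → ℝ} (hA : PairBd F N A) (u : ℕ → ℝ) (hu0 : u 0 = 0)
    {T V B : ℝ} (hT : 0 ≤ T) (hV : 0 ≤ V) (hB : 0 ≤ B) (hTV : T ≤ V) (hTB : T ≤ B)
    (hsup : ∀ i, i ≤ N → |u i| ≤ T) (Ψ₃ : ℕ → ℝ)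
    (h3 : ∀ p n, p ≤ n → n ≤ N → |u n - u p| ^ 3 ≤ Ψ₃ n - Ψ₃ p) (hV3 : Ψ₃ N - Ψ₃ 0 ≤ V ^ 3)
    (Ψ₁ : ℕ → ℝ) (h1 : ∀ p n, p ≤ n → n ≤ N → |u n - u p| ^ 1 ≤ Ψ₁ n - Ψ₁ p)
    (hB1 : Ψ₁ N - Ψ₁ 0 ≤ B ^ 1) (L : ℕ) (hL : N ≤ 8 ^ L) :
    |∑ j ∈ range N, F j * (u (j + 1) - u j)| ≤ ∑ ℓ ∈ range (L + 2), lam T V B ℓ * A ℓ := by
  choose s hs0 herr hc hbd using
    level_approx u hu0 N hT hV hB hsup Ψ₃ h3 hV3 Ψ₁ h1 hB1
  let t : ℕ → ℕ → ℝ := fun ℓ => if ℓ < L then s ℓ else u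
  have ht0 : ∀ ℓ, t ℓ 0 = 0 := by
    intro ℓ
    by_cases h : ℓ < L <;> simp [t, h, hs0, hu0]
  have hterr : ∀ ℓ i, i ≤ N → |u i - t ℓ i| ≤ Tl T V B ℓ := by
    intro ℓ i hi
    by_cases h : ℓ < L
    · simp only [t, h, if_true]; exact herr ℓ i hi
    · simp only [t, h, if_false, sub_self, abs_zero]; exact Tl_nonneg hT hV hB ℓ
  have htbd : ∀ ℓ i, i ≤ N → |t ℓ i| ≤ T := by
    intro ℓ i hi
    by_cases h : ℓ < L
    · simp only [t, h, if_true]; exact hbd ℓ i hi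
    · simp only [t, h, if_false]; exact hsup i hi
  have htc : ∀ ℓ, ℓ ≤ L → jc (t ℓ) N ≤ 8 ^ ℓ := by
    intro ℓ hℓ
    by_cases h : ℓ < L
    · simp only [t, h, if_true]; exact hc ℓ
    · have : ℓ = L := by omega
      subst this
      simp only [t, h, if_false]
      exact (jc_le u N).trans hL
  let Y : ℕ → ℝ := fun ℓ => ∑ j ∈ range N, F j * (t ℓ (j + 1) - t ℓ j)
  have hYL : Y L = ∑ j ∈ range N, F j * (u (j + 1) - u j) := by
    simp [Y, t]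
  have htel : Y L = Y 0 + ∑ ℓ ∈ range L, (Y (ℓ + 1) - Y ℓ) := by
    rw [Finset.sum_range_sub]; ring
  have hY0 : |Y 0| ≤ T * A 0 := by
    have := hA.scale 0 (t 0) (ht0 0) hT (htbd 0) (by simpa using htc 0 (Nat.zero_le _))
    simpa using this
  have hYs : ∀ ℓ ∈ range L, |Y (ℓ + 1) - Y ℓ| ≤ lam T V B (ℓ + 2) * A (ℓ + 2) := by
    intro ℓ hℓ
    have hℓ' := Finset.mem_range.mp hℓ
    have e : Y (ℓ + 1) - Y ℓ = ∑ j ∈ range N,
        F j * ((fun i => t (ℓ + 1) i - t ℓ i) (j + 1) - (fun i => t (ℓ + 1) i - t ℓ i) j) := by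
      simp only [Y]
      rw [← Finset.sum_sub_distrib]
      exact Finset.sum_congr rfl fun j _ => by ring
    have hTlnn := Tl_nonneg (T := T) (V := V) (B := B) hT hV hB ℓ
    have hbound := hA.scale (ℓ + 2) (fun i => t (ℓ + 1) i - t ℓ i) (by simp [ht0])
      (h := 2 * Tl T V B ℓ) (by positivity) (by
        intro i hi
        have a1 := hterr (ℓ + 1) i hi
        have a2 := hterr ℓ i hi
        have a3 := Tl_succ_le (T := T) hV hB ℓ
        have : t (ℓ + 1) i - t ℓ i = (u i - t ℓ i) - (u i - t (ℓ + 1) i) := by ring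
        rw [this]
        have := abs_sub (u i - t ℓ i) (u i - t (ℓ + 1) i)
        linarith) (by
        have a1 := jc_sub_le (t (ℓ + 1)) (t ℓ) N
        have a2 := htc (ℓ + 1) (by omega)
        have a3 := htc ℓ (by omega)
        have a4 : 8 ^ (ℓ + 1) + 8 ^ ℓ ≤ 8 ^ (ℓ + 2) := by
          have : 1 ≤ 8 ^ ℓ := Nat.one_le_pow _ _ (by norm_num)
          rw [pow_succ, pow_succ 8 (ℓ + 1), pow_succ]
          nlinarith
        omega)
    rw [e]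
    refine hbound.trans (mul_le_mul_of_nonneg_right ?_ (hA.nonneg _))
    have h2 : (2 : ℝ) ^ (ℓ + 2) = 4 * 2 ^ ℓ := by rw [pow_add]; norm_num; ring
    have h14 : ((1 : ℝ) / 4) ^ (ℓ + 2) = (1 / 16) * (1 / 4) ^ ℓ := by rw [pow_add]; norm_num; ring
    unfold lam
    rw [h2]
    have hp : (0 : ℝ) < 2 ^ ℓ := by positivity
    have k1 : 2 ^ ℓ * Tl T V B ℓ ≤ 2 ^ ℓ * T :=
      mul_le_mul_of_nonneg_left (min_le_left _ _) hp.le
    have k2 : 2 ^ ℓ * Tl T V B ℓ ≤ V := by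
      have : Tl T V B ℓ ≤ V * (1 / 2) ^ ℓ := (min_le_right _ _).trans (min_le_left _ _)
      calc 2 ^ ℓ * Tl T V B ℓ ≤ 2 ^ ℓ * (V * (1 / 2) ^ ℓ) := mul_le_mul_of_nonneg_left this hp.le
        _ = V * ((2 : ℝ) * (1 / 2)) ^ ℓ := by rw [mul_pow]; ring
        _ = V := by norm_num
    have k3 : 2 ^ ℓ * Tl T V B ℓ ≤ B * (1 / 4) ^ ℓ := by
      have : Tl T V B ℓ ≤ B * (1 / 8) ^ ℓ := (min_le_right _ _).trans (min_le_right _ _)
      calc 2 ^ ℓ * Tl T V B ℓ ≤ 2 ^ ℓ * (B * (1 / 8) ^ ℓ) := mul_le_mul_of_nonneg_left this hp.le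
        _ = B * ((2 : ℝ) * (1 / 8)) ^ ℓ := by rw [mul_pow]; ring
        _ = B * (1 / 4) ^ ℓ := by norm_num
    have k4 : 2 ^ ℓ * Tl T V B ℓ ≤ min (4 * 2 ^ ℓ * T) (min V (16 * (1 / 4) ^ (ℓ + 2) * B)) := by
      refine le_min ?_ (le_min k2 ?_)
      · have : 0 ≤ 2 ^ ℓ * T := by positivity
        linarith
      · rw [h14]
        calc _ ≤ B * (1 / 4) ^ ℓ := k3
          _ = _ := by ring
    have : 2 * Tl T V B ℓ * (4 * 2 ^ ℓ) = 8 * (2 ^ ℓ * Tl T V B ℓ) := by ring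
    rw [this]
    linarith
  have hlamnn : ∀ ℓ, 0 ≤ lam T V B ℓ * A ℓ := fun ℓ =>
    mul_nonneg (lam_nonneg hT hV hB ℓ) (hA.nonneg ℓ)
  have hlam0 : T * A 0 ≤ lam T V B 0 * A 0 := by
    refine mul_le_mul_of_nonneg_right ?_ (hA.nonneg 0)
    unfold lam
    have : T ≤ min (2 ^ 0 * T) (min V (16 * (1 / 4) ^ 0 * B)) := by
      refine le_min (by simp) (le_min hTV ?_)
      have := hB
      norm_num
      linarith
    linarith
  rw [← hYL, htel]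
  calc |Y 0 + ∑ ℓ ∈ range L, (Y (ℓ + 1) - Y ℓ)|
      ≤ |Y 0| + ∑ ℓ ∈ range L, |Y (ℓ + 1) - Y ℓ| :=
        (abs_add_le _ _).trans (add_le_add le_rfl (Finset.abs_sum_le_sum_abs _ _))
    _ ≤ T * A 0 + ∑ ℓ ∈ range L, lam T V B (ℓ + 2) * A (ℓ + 2) :=
        add_le_add hY0 (Finset.sum_le_sum hYs)
    _ ≤ ∑ ℓ ∈ range (L + 2), lam T V B ℓ * A ℓ := by
        rw [Finset.sum_range_succ', Finset.sum_range_succ']
        have := hlamnn 1
        norm_num at this ⊢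
        linarith

end Vale.Agent.Lib.P125.Mt
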