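import Vale.Agent.Lib.P125.Budget
import Vale.Agent.Lib.P125.Mt.Greedy

/-!
Estimates for the gradient of the time sum of a label function along a reversible chain:
a variance budget, and the cubic moments.
-/

namespace Vale.Agent.Lib.P125

open Finset Matrix

namespace Chain

variable {S : Type} [Fintype S] [DecidableEq S] (C : Chain S)

/-- The time sum `∑_{s<q} P^s h`. -/
def mq (q : ℕ) (h : S → ℝ) (x : S) : ℝ := ∑ s ∈ range q, C.av s h x

lemma av_one (h : S → ℝ) (x : S) : C.av 1 h x = ∑ y, C.P x y * h y := by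
  simp [av]

lemma av_add_fun (s : ℕ) (h k : S → ℝ) (x : S) :
    C.av s (fun w => h w + k w) x = C.av s h x + C.av s k x := by
  unfold av
  rw [← Finset.sum_add_distrib]
  exact Finset.sum_congr rfl fun w _ => by ring

lemma av_comp (s : ℕ) (h : S → ℝ) (x : S) : C.av s (C.av 1 h) x = C.av (s + 1) h x := by
  rw [C.av_add s 1 h x]
  rfl

lemma av_comp' (s : ℕ) (h : S → ℝ) (x : S) : C.av 1 (C.av s h) x = C.av (s + 1) h x := by
  rw [C.av_succ s h x, C.av_one]

lemma av_abs_le (s : ℕ) (h : S → ℝ) (x : S) : |C.av s h x| ≤ C.av s (fun w => |h w|) x := by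
  unfold av
  refine (Finset.abs_sum_le_sum_abs _ _).trans (le_of_eq ?_)
  refine Finset.sum_congr rfl fun w _ => ?_
  rw [abs_mul, abs_of_nonneg (C.pow_nonneg' s x w)]

lemma mean_av (s : ℕ) (h : S → ℝ) : ∑ x, C.pi x * C.av s h x = ∑ x, C.pi x * h x := by
  have := C.av_selfadj s (fun _ => 1) h
  simp only [mul_one] at this
  rw [this]
  refine Finset.sum_congr rfl fun z _ => ?_
  have e : C.av s (fun _ => (1 : ℝ)) z = 1 := C.av_const s 1 z
  rw [e, mul_one]

lemma av_cube_le (s : ℕ) {β : S → ℝ} (hβ : ∀ z, 0 ≤ β z) (x : S) :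
    (C.av s β x) ^ 3 ≤ C.av s (fun w => (β w) ^ 3) x := by
  unfold av
  exact Real.pow_arith_mean_le_arith_mean_pow Finset.univ _ _
    (fun w _ => C.pow_nonneg' s x w) (C.pow_sum s x) (fun w _ => hβ w) 3

lemma mean_av_cube (s : ℕ) {β : S → ℝ} (hβ : ∀ z, 0 ≤ β z) :
    ∑ x, C.pi x * (C.av s β x) ^ 3 ≤ ∑ x, C.pi x * (β x) ^ 3 := by
  calc ∑ x, C.pi x * (C.av s β x) ^ 3
      ≤ ∑ x, C.pi x * C.av s (fun w => (β w) ^ 3) x :=
        Finset.sum_le_sum fun x _ => mul_le_mul_of_nonneg_left (C.av_cube_le s hβ x) (C.pi_nonneg x)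
    _ = _ := C.mean_av s _

lemma av_nonneg' (s : ℕ) {β : S → ℝ} (hβ : ∀ z, 0 ≤ β z) (x : S) : 0 ≤ C.av s β x :=
  C.av_nonneg s hβ x

lemma mq_nonneg (q : ℕ) {β : S → ℝ} (hβ : ∀ z, 0 ≤ β z) (x : S) : 0 ≤ C.mq q β x :=
  Finset.sum_nonneg fun s _ => C.av_nonneg s hβ x

lemma mq_cube_le (q : ℕ) {β : S → ℝ} (hβ : ∀ z, 0 ≤ β z) (x : S) :
    (C.mq q β x) ^ 3 ≤ (q : ℝ) ^ 2 * ∑ s ∈ range q, (C.av s β x) ^ 3 := by
  rcases Nat.eq_zero_or_pos q with rfl | hq
  · simp [mq]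
  have key := pow_sum_div_card_le_sum_pow (s := range q) (f := fun s => C.av s β x)
    (fun s _ => C.av_nonneg s hβ x) 2
  simp only [Finset.card_range] at key
  have hq' : (0 : ℝ) < (q : ℝ) ^ 2 := by positivity
  unfold mq
  rw [div_le_iff₀ hq', mul_comm] at key
  exact key

lemma mean_mq_cube (q : ℕ) {β : S → ℝ} (hβ : ∀ z, 0 ≤ β z) :
    ∑ x, C.pi x * (C.mq q β x) ^ 3 ≤ (q : ℝ) ^ 3 * ∑ x, C.pi x * (β x) ^ 3 := by
  calc ∑ x, C.pi x * (C.mq q β x) ^ 3
      ≤ ∑ x, C.pi x * ((q : ℝ) ^ 2 * ∑ s ∈ range q, (C.av s β x) ^ 3) :=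
        Finset.sum_le_sum fun x _ => mul_le_mul_of_nonneg_left (C.mq_cube_le q hβ x) (C.pi_nonneg x)
    _ = (q : ℝ) ^ 2 * ∑ s ∈ range q, ∑ x, C.pi x * (C.av s β x) ^ 3 := by
        have : ∀ x, C.pi x * ((q : ℝ) ^ 2 * ∑ s ∈ range q, (C.av s β x) ^ 3)
            = (q : ℝ) ^ 2 * ∑ s ∈ range q, C.pi x * (C.av s β x) ^ 3 := by
          intro x
          rw [← Finset.mul_sum]
          ring
        rw [Finset.sum_congr rfl fun x _ => this x, ← Finset.mul_sum, Finset.sum_comm]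
    _ ≤ (q : ℝ) ^ 2 * ∑ _s ∈ range q, ∑ x, C.pi x * (β x) ^ 3 :=
        mul_le_mul_of_nonneg_left (Finset.sum_le_sum fun s _ => C.mean_av_cube s hβ) (by positivity)
    _ = _ := by
        rw [Finset.sum_const, Finset.card_range, nsmul_eq_mul]
        ring

/-- Three factor Hölder inequality with explicit scales. -/
lemma holder3 {u v w : S → ℝ} (hu : ∀ z, 0 ≤ u z) (hv : ∀ z, 0 ≤ v z) (hw : ∀ z, 0 ≤ w z)
    {a b X : ℝ} (ha : 0 < a) (hb : 0 < b)
    (h1 : ∑ z, C.pi z * (u z) ^ 3 ≤ X) (h2 : ∑ z, C.pi z * (v z) ^ 3 ≤ a ^ 3 * X)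
    (h3 : ∑ z, C.pi z * (w z) ^ 3 ≤ b ^ 3 * X) :
    ∑ z, C.pi z * (u z * v z * w z) ≤ a * b * X := by
  have amgm : ∀ x y t : ℝ, 0 ≤ x → 0 ≤ y → 0 ≤ t → x * y * t ≤ (x ^ 3 + y ^ 3 + t ^ 3) / 3 := by
    intro x y t hx hy ht
    nlinarith [mul_nonneg (add_nonneg (add_nonneg hx hy) ht)
      (add_nonneg (add_nonneg (sq_nonneg (x - y)) (sq_nonneg (y - t))) (sq_nonneg (x - t)))]
  have pt : ∀ z, C.pi z * (u z * v z * w z)
      ≤ a * b * ((C.pi z * (u z) ^ 3 + (1 / a ^ 3) * (C.pi z * (v z) ^ 3)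
          + (1 / b ^ 3) * (C.pi z * (w z) ^ 3)) / 3) := by
    intro z
    have h := amgm (u z) (v z / a) (w z / b) (hu z) (div_nonneg (hv z) ha.le) (div_nonneg (hw z) hb.le)
    have e1 : u z * v z * w z = a * b * (u z * (v z / a) * (w z / b)) := by
      field_simp
    have e2 : a * b * ((C.pi z * (u z) ^ 3 + (1 / a ^ 3) * (C.pi z * (v z) ^ 3)
          + (1 / b ^ 3) * (C.pi z * (w z) ^ 3)) / 3)
        = C.pi z * (a * b * (((u z) ^ 3 + (v z / a) ^ 3 + (w z / b) ^ 3) / 3)) := by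
      field_simp
    rw [e2, e1]
    refine mul_le_mul_of_nonneg_left ?_ (C.pi_nonneg z)
    exact mul_le_mul_of_nonneg_left h (by positivity)
  calc ∑ z, C.pi z * (u z * v z * w z)
      ≤ ∑ z, a * b * ((C.pi z * (u z) ^ 3 + (1 / a ^ 3) * (C.pi z * (v z) ^ 3)
          + (1 / b ^ 3) * (C.pi z * (w z) ^ 3)) / 3) := Finset.sum_le_sum fun z _ => pt z
    _ = a * b * ((∑ z, C.pi z * (u z) ^ 3 + (1 / a ^ 3) * ∑ z, C.pi z * (v z) ^ 3
          + (1 / b ^ 3) * ∑ z, C.pi z * (w z) ^ 3) / 3) := by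
        rw [Finset.mul_sum, Finset.mul_sum, ← Finset.sum_add_distrib, ← Finset.sum_add_distrib,
          Finset.sum_div, Finset.mul_sum]
    _ ≤ a * b * X := by
        refine mul_le_mul_of_nonneg_left ?_ (by positivity)
        have ha3 : 0 < a ^ 3 := by positivity
        have hb3 : 0 < b ^ 3 := by positivity
        have e2 : (1 / a ^ 3) * ∑ z, C.pi z * (v z) ^ 3 ≤ X := by
          rw [one_div, inv_mul_le_iff₀ ha3]; exact h2
        have e3 : (1 / b ^ 3) * ∑ z, C.pi z * (w z) ^ 3 ≤ X := by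
          rw [one_div, inv_mul_le_iff₀ hb3]; exact h3
        linarith

/-- The signed kernel of `∑_{s<q} P^s` on an edge. -/
def Wd (q : ℕ) (x y z : S) : ℝ := ∑ s ∈ range q, ((C.P ^ s) y z - (C.P ^ s) x z)

/-- The total kernel of `∑_{s<q} P^s` on an edge. -/
def Wt (q : ℕ) (x y z : S) : ℝ := ∑ s ∈ range q, ((C.P ^ s) y z + (C.P ^ s) x z)

lemma Wt_nonneg (q : ℕ) (x y z : S) : 0 ≤ C.Wt q x y z :=
  Finset.sum_nonneg fun s _ => add_nonneg (C.pow_nonneg' s y z) (C.pow_nonneg' s x z)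

lemma abs_Wd_le (q : ℕ) (x y z : S) : |C.Wd q x y z| ≤ C.Wt q x y z := by
  unfold Wd Wt
  refine (Finset.abs_sum_le_sum_abs _ _).trans (Finset.sum_le_sum fun s _ => ?_)
  have h1 := C.pow_nonneg' s y z
  have h2 := C.pow_nonneg' s x z
  rw [abs_le]
  constructor <;> linarith

lemma Wd_sum (q : ℕ) (x y : S) (h : S → ℝ) :
    ∑ z, C.Wd q x y z * h z = C.mq q h y - C.mq q h x := by
  unfold Wd mq av
  rw [← Finset.sum_sub_distrib]
  simp only [Finset.sum_mul]
  rw [Finset.sum_comm]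
  refine Finset.sum_congr rfl fun s _ => ?_
  rw [← Finset.sum_sub_distrib]
  exact Finset.sum_congr rfl fun z _ => by ring

lemma Wt_sum (q : ℕ) (x y : S) (h : S → ℝ) :
    ∑ z, C.Wt q x y z * h z = C.mq q h y + C.mq q h x := by
  unfold Wt mq av
  rw [← Finset.sum_add_distrib]
  simp only [Finset.sum_mul]
  rw [Finset.sum_comm]
  refine Finset.sum_congr rfl fun s _ => ?_
  rw [← Finset.sum_add_distrib]
  exact Finset.sum_congr rfl fun z _ => by ring

/-- The time sum of the label at position `i`. -/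
def Uu (q : ℕ) (β : S → ℝ) (a : S → ℕ → ℝ) (i : ℕ) (x : S) : ℝ :=
  C.mq q (fun z => β z * a z i) x

/-- The gradient of the time sum on an edge. -/
def Gg (q : ℕ) (β : S → ℝ) (a : S → ℕ → ℝ) (x y : S) (i : ℕ) : ℝ :=
  C.Uu q β a i y - C.Uu q β a i x

/-- The variation of the labels seen from an edge, at position `i`. -/
def dL (q : ℕ) (β : S → ℝ) (a : S → ℕ → ℝ) (x y : S) (i : ℕ) : ℝ :=
  ∑ z, C.Wt q x y z * (β z * |a z (i + 1) - a z i|)

/-- The total weight of an edge. -/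
def om (q : ℕ) (β : S → ℝ) (x y : S) : ℝ := C.mq q β y + C.mq q β x

/-- The cubic budget on an edge, up to position `n`. -/
def Ph (q : ℕ) (β : S → ℝ) (a : S → ℕ → ℝ) (x y : S) (n : ℕ) : ℝ :=
  ∑ i ∈ range n, C.dL q β a x y i * ((C.Gg q β a x y i) ^ 2 + (C.Gg q β a x y (i + 1)) ^ 2)

/-- The linear budget on an edge, up to position `n`. -/
def Bq (q : ℕ) (β : S → ℝ) (a : S → ℕ → ℝ) (x y : S) (n : ℕ) : ℝ :=
  ∑ i ∈ range n, C.dL q β a x y i

variable {q : ℕ} {β : S → ℝ} {a : S → ℕ → ℝ}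

lemma om_nonneg (hβ : ∀ z, 0 ≤ β z) (x y : S) : 0 ≤ C.om q β x y :=
  add_nonneg (C.mq_nonneg q hβ y) (C.mq_nonneg q hβ x)

lemma dL_nonneg (hβ : ∀ z, 0 ≤ β z) (x y : S) (i : ℕ) : 0 ≤ C.dL q β a x y i :=
  Finset.sum_nonneg fun z _ => mul_nonneg (C.Wt_nonneg q x y z) (mul_nonneg (hβ z) (abs_nonneg _))

lemma Gg_eq (x y : S) (i : ℕ) :
    C.Gg q β a x y i = ∑ z, C.Wd q x y z * (β z * a z i) := by
  rw [Wd_sum]; rfl

lemma Gg_zero (ha0 : ∀ z, a z 0 = 0) (x y : S) : C.Gg q β a x y 0 = 0 := by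
  rw [Gg_eq]
  simp [ha0]

lemma Gg_sup (hβ : ∀ z, 0 ≤ β z) {g : ℝ} (hg : ∀ z i, |a z i| ≤ g) (x y : S) (i : ℕ) :
    |C.Gg q β a x y i| ≤ g * C.om q β x y := by
  rw [Gg_eq]
  calc |∑ z, C.Wd q x y z * (β z * a z i)|
      ≤ ∑ z, |C.Wd q x y z * (β z * a z i)| := Finset.abs_sum_le_sum_abs _ _
    _ ≤ ∑ z, g * (C.Wt q x y z * β z) := by
        refine Finset.sum_le_sum fun z _ => ?_
        rw [abs_mul, abs_mul, abs_of_nonneg (hβ z)]
        have h1 := C.abs_Wd_le q x y z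
        have h2 := hg z i
        have h3 := C.Wt_nonneg q x y z
        have h4 := hβ z
        calc |C.Wd q x y z| * (β z * |a z i|) ≤ C.Wt q x y z * (β z * g) :=
              mul_le_mul h1 (mul_le_mul_of_nonneg_left h2 h4)
                (mul_nonneg h4 (abs_nonneg _)) h3
          _ = _ := by ring
    _ = g * C.om q β x y := by
        rw [← Finset.mul_sum, Wt_sum]; rfl

lemma Gg_step (hβ : ∀ z, 0 ≤ β z) (x y : S) (i : ℕ) :
    |C.Gg q β a x y (i + 1) - C.Gg q β a x y i| ≤ C.dL q β a x y i := by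
  rw [Gg_eq, Gg_eq, ← Finset.sum_sub_distrib]
  refine (Finset.abs_sum_le_sum_abs _ _).trans (Finset.sum_le_sum fun z _ => ?_)
  have e : C.Wd q x y z * (β z * a z (i + 1)) - C.Wd q x y z * (β z * a z i)
      = C.Wd q x y z * (β z * (a z (i + 1) - a z i)) := by ring
  rw [e, abs_mul, abs_mul, abs_of_nonneg (hβ z)]
  exact mul_le_mul_of_nonneg_right (C.abs_Wd_le q x y z) (mul_nonneg (hβ z) (abs_nonneg _))

lemma dL_total (hβ : ∀ z, 0 ≤ β z) {m : ℝ} {N : ℕ}
    (hm : ∀ z, ∑ i ∈ range N, |a z (i + 1) - a z i| ≤ m) (x y : S) :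
    C.Bq q β a x y N ≤ m * C.om q β x y := by
  unfold Bq dL
  rw [Finset.sum_comm]
  calc ∑ z, ∑ i ∈ range N, C.Wt q x y z * (β z * |a z (i + 1) - a z i|)
      = ∑ z, (C.Wt q x y z * β z) * ∑ i ∈ range N, |a z (i + 1) - a z i| := by
        refine Finset.sum_congr rfl fun z _ => ?_
        rw [Finset.mul_sum]
        exact Finset.sum_congr rfl fun i _ => by ring
    _ ≤ ∑ z, (C.Wt q x y z * β z) * m :=
        Finset.sum_le_sum fun z _ =>
          mul_le_mul_of_nonneg_left (hm z) (mul_nonneg (C.Wt_nonneg q x y z) (hβ z))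
    _ = m * C.om q β x y := by
        rw [← Finset.sum_mul, Wt_sum]; unfold om; ring

/-- The cubic budget on an interval. -/
lemma Ph_budget (hβ : ∀ z, 0 ≤ β z) (x y : S) {p n : ℕ} (h : p ≤ n) :
    |C.Gg q β a x y n - C.Gg q β a x y p| ^ 3
      ≤ 6 * C.Ph q β a x y n - 6 * C.Ph q β a x y p := by
  have h1 := Mt.cube_interval (C.Gg q β a x y) h
  have h2 : ∑ i ∈ Ico p n, |C.Gg q β a x y (i + 1) - C.Gg q β a x y i|
        * ((C.Gg q β a x y i) ^ 2 + (C.Gg q β a x y (i + 1)) ^ 2)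
      ≤ ∑ i ∈ Ico p n, C.dL q β a x y i
        * ((C.Gg q β a x y i) ^ 2 + (C.Gg q β a x y (i + 1)) ^ 2) :=
    Finset.sum_le_sum fun i _ => mul_le_mul_of_nonneg_right (C.Gg_step hβ x y i) (by positivity)
  have h3 := Finset.sum_Ico_eq_sub (fun i => C.dL q β a x y i
        * ((C.Gg q β a x y i) ^ 2 + (C.Gg q β a x y (i + 1)) ^ 2)) h
  unfold Ph
  rw [h3] at h2
  linarith

/-- The linear budget on an interval. -/
lemma Bq_budget (hβ : ∀ z, 0 ≤ β z) (x y : S) {p n : ℕ} (h : p ≤ n) :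
    |C.Gg q β a x y n - C.Gg q β a x y p| ^ 1 ≤ C.Bq q β a x y n - C.Bq q β a x y p := by
  rw [pow_one]
  unfold Bq
  rw [← Finset.sum_Ico_eq_sub _ h]
  induction n, h using Nat.le_induction with
  | base => simp
  | succ n hn ih =>
    rw [Finset.sum_Ico_succ_top hn]
    have := abs_sub_le (C.Gg q β a x y (n + 1)) (C.Gg q β a x y n) (C.Gg q β a x y p)
    have h2 := C.Gg_step (q := q) (a := a) hβ x y n
    linarith

/-- Local energy in terms of means. -/
lemma En_eq (U : S → ℝ) (w : S) :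
    C.En U w = C.av 1 (fun v => (U v) ^ 2) w - (U w) ^ 2 + 2 * (U w * (U w - C.av 1 U w)) := by
  unfold En
  rw [av_one, av_one]
  have hsum := C.P_sum w
  have : ∀ y, C.P w y * (U y - U w) ^ 2
      = C.P w y * (U y) ^ 2 - 2 * U w * (C.P w y * U y) + (U w) ^ 2 * C.P w y := by
    intro y; ring
  simp only [this, Finset.sum_add_distrib, Finset.sum_sub_distrib, ← Finset.mul_sum, hsum]
  ring

/-- Telescoping of the energy along the chain. -/
lemma energy_tele (U : S → ℝ) (z : S) (q : ℕ) :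
    ∑ s ∈ range q, C.av s (C.En U) z
      = C.av q (fun v => (U v) ^ 2) z - (U z) ^ 2
        + 2 * ∑ s ∈ range q, C.av s (fun w => U w * (U w - C.av 1 U w)) z := by
  induction q with
  | zero =>
    simp [av_zero]
  | succ q ih =>
    rw [Finset.sum_range_succ, Finset.sum_range_succ, ih, mul_add]
    have e : C.av q (C.En U) z = C.av (q + 1) (fun v => (U v) ^ 2) z - C.av q (fun v => (U v) ^ 2) z
        + 2 * C.av q (fun w => U w * (U w - C.av 1 U w)) z := by
      rw [← C.av_comp]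
      unfold av
      rw [Finset.mul_sum, ← Finset.sum_sub_distrib, ← Finset.sum_add_distrib]
      refine Finset.sum_congr rfl fun w _ => ?_
      rw [C.En_eq U w]
      unfold av
      ring
    rw [e]
    ring

lemma mq_diff (q : ℕ) (h : S → ℝ) (w : S) :
    C.mq q h w - C.av 1 (C.mq q h) w = h w - C.av q h w := by
  have e : C.av 1 (C.mq q h) w = ∑ s ∈ range q, C.av (s + 1) h w := by
    rw [av_one]
    unfold mq
    simp only [Finset.mul_sum]
    rw [Finset.sum_comm]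
    refine Finset.sum_congr rfl fun s _ => ?_
    rw [← C.av_comp', av_one]
  rw [e]
  unfold mq
  rw [← Finset.sum_sub_distrib, Finset.sum_range_sub', av_zero]

/-- The energy of the time sum of the label at position `i`, started from `z`. -/
def Eg (q : ℕ) (β : S → ℝ) (a : S → ℕ → ℝ) (z : S) (i : ℕ) : ℝ :=
  ∑ s ∈ range q, C.av s (C.En (C.Uu q β a i)) z

/-- The common bound for the energies. -/
def Bb (q : ℕ) (β : S → ℝ) (z : S) : ℝ :=
  C.av q (fun w => (C.mq q β w) ^ 2) z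
    + 2 * ∑ s ∈ range q, C.av s (fun w => C.mq q β w * (β w + C.av q β w)) z

lemma Bb_nonneg (hβ : ∀ z, 0 ≤ β z) (z : S) : 0 ≤ C.Bb q β z := by
  unfold Bb
  refine add_nonneg (C.av_nonneg _ (fun w => sq_nonneg _) z) (mul_nonneg (by norm_num) ?_)
  exact Finset.sum_nonneg fun s _ => C.av_nonneg _ (fun w =>
    mul_nonneg (C.mq_nonneg q hβ w) (add_nonneg (hβ w) (C.av_nonneg q hβ w))) z

lemma Uu_abs_le (hβ : ∀ z, 0 ≤ β z) {g : ℝ} (hg : ∀ z i, |a z i| ≤ g) (i : ℕ) (w : S) :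
    |C.Uu q β a i w| ≤ g * C.mq q β w := by
  unfold Uu mq
  rw [Finset.mul_sum]
  refine (Finset.abs_sum_le_sum_abs _ _).trans (Finset.sum_le_sum fun s _ => ?_)
  refine (C.av_abs_le s _ w).trans ?_
  calc C.av s (fun z => |β z * a z i|) w ≤ C.av s (fun z => g * β z) w := by
        refine C.av_mono s (fun z => ?_) w
        rw [abs_mul, abs_of_nonneg (hβ z), mul_comm]
        exact mul_le_mul_of_nonneg_right (hg z i) (hβ z)
    _ = g * C.av s β w := C.av_const_mul s g β w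

lemma Eg_le (hβ : ∀ z, 0 ≤ β z) {g : ℝ} (hg0 : 0 ≤ g) (hg : ∀ z i, |a z i| ≤ g) (z : S) (i : ℕ) :
    C.Eg q β a z i ≤ g ^ 2 * C.Bb q β z := by
  unfold Eg
  rw [energy_tele]
  set U := C.Uu q β a i with hU
  have hU1 : ∀ w, |U w| ≤ g * C.mq q β w := fun w => C.Uu_abs_le hβ hg i w
  have hU2 : ∀ w, |U w - C.av 1 U w| ≤ g * (β w + C.av q β w) := by
    intro w
    have e : U w - C.av 1 U w = β w * a w i - C.av q (fun z => β z * a z i) w := by
      exact C.mq_diff q (fun z => β z * a z i) w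
    rw [e]
    refine (abs_sub _ _).trans ?_
    rw [mul_add]
    refine add_le_add ?_ ?_
    · rw [abs_mul, abs_of_nonneg (hβ w), mul_comm]
      exact mul_le_mul_of_nonneg_right (hg w i) (hβ w)
    · refine (C.av_abs_le q _ w).trans ?_
      calc C.av q (fun z => |β z * a z i|) w ≤ C.av q (fun z => g * β z) w := by
            refine C.av_mono q (fun z => ?_) w
            rw [abs_mul, abs_of_nonneg (hβ z), mul_comm]
            exact mul_le_mul_of_nonneg_right (hg z i) (hβ z)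
        _ = g * C.av q β w := C.av_const_mul q g β w
  have t1 : C.av q (fun v => (U v) ^ 2) z ≤ g ^ 2 * C.av q (fun w => (C.mq q β w) ^ 2) z := by
    rw [← C.av_const_mul]
    refine C.av_mono q (fun w => ?_) z
    have := sq_le_sq' (by linarith [abs_le.mp (hU1 w)]) (abs_le.mp (hU1 w)).2
    calc (U w) ^ 2 ≤ (g * C.mq q β w) ^ 2 := this
      _ = _ := by ring
  have t2 : ∀ s, C.av s (fun w => U w * (U w - C.av 1 U w)) z
      ≤ g ^ 2 * C.av s (fun w => C.mq q β w * (β w + C.av q β w)) z := by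
    intro s
    rw [← C.av_const_mul]
    refine C.av_mono s (fun w => ?_) z
    have h1 := hU1 w
    have h2 := hU2 w
    calc U w * (U w - C.av 1 U w) ≤ |U w * (U w - C.av 1 U w)| := le_abs_self _
      _ = |U w| * |U w - C.av 1 U w| := abs_mul _ _
      _ ≤ (g * C.mq q β w) * (g * (β w + C.av q β w)) :=
          mul_le_mul h1 h2 (abs_nonneg _)
            (mul_nonneg hg0 (C.mq_nonneg q hβ w))
      _ = _ := by ring
  have t3 : ∑ s ∈ range q, C.av s (fun w => U w * (U w - C.av 1 U w)) z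
      ≤ g ^ 2 * ∑ s ∈ range q, C.av s (fun w => C.mq q β w * (β w + C.av q β w)) z := by
    rw [Finset.mul_sum]
    exact Finset.sum_le_sum fun s _ => t2 s
  unfold Bb
  have : 0 ≤ (U z) ^ 2 := sq_nonneg _
  nlinarith

/-- Edge sums weighted by the kernel. -/
lemma edge_Wt (q : ℕ) (Γ : S → S → ℝ) (hsym : ∀ x y, Γ x y = Γ y x) (z : S) :
    ∑ x, ∑ y, C.pi x * C.P x y * (C.Wt q x y z * Γ x y)
      = 2 * C.pi z * ∑ s ∈ range q, ∑ x, (C.P ^ s) z x * ∑ y, C.P x y * Γ x y := by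
  have hA : ∀ s, ∑ x, ∑ y, C.pi x * C.P x y * ((C.P ^ s) x z * Γ x y)
      = C.pi z * ∑ x, (C.P ^ s) z x * ∑ y, C.P x y * Γ x y := by
    intro s
    rw [Finset.mul_sum]
    refine Finset.sum_congr rfl fun x _ => ?_
    rw [Finset.mul_sum, Finset.mul_sum]
    refine Finset.sum_congr rfl fun y _ => ?_
    have := C.pow_rev s x z
    calc C.pi x * C.P x y * ((C.P ^ s) x z * Γ x y)
        = (C.pi x * (C.P ^ s) x z) * (C.P x y * Γ x y) := by ring
      _ = (C.pi z * (C.P ^ s) z x) * (C.P x y * Γ x y) := by rw [this]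
      _ = _ := by ring
  have hB : ∀ s, ∑ x, ∑ y, C.pi x * C.P x y * ((C.P ^ s) y z * Γ x y)
      = C.pi z * ∑ x, (C.P ^ s) z x * ∑ y, C.P x y * Γ x y := by
    intro s
    rw [← hA s, Finset.sum_comm]
    refine Finset.sum_congr rfl fun x _ => Finset.sum_congr rfl fun y _ => ?_
    rw [C.rev y x, hsym y x]
  unfold Wt
  calc ∑ x, ∑ y, C.pi x * C.P x y * ((∑ s ∈ range q, ((C.P ^ s) y z + (C.P ^ s) x z)) * Γ x y)
      = ∑ s ∈ range q, (∑ x, ∑ y, C.pi x * C.P x y * ((C.P ^ s) y z * Γ x y)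
          + ∑ x, ∑ y, C.pi x * C.P x y * ((C.P ^ s) x z * Γ x y)) := by
        have e1 : ∀ x y, C.pi x * C.P x y * ((∑ s ∈ range q, ((C.P ^ s) y z + (C.P ^ s) x z)) * Γ x y)
            = ∑ s ∈ range q, (C.pi x * C.P x y * ((C.P ^ s) y z * Γ x y)
                + C.pi x * C.P x y * ((C.P ^ s) x z * Γ x y)) := by
          intro x y
          rw [Finset.sum_mul, Finset.mul_sum]
          exact Finset.sum_congr rfl fun s _ => by ring
        simp only [e1]
        have e2 : ∀ x, ∑ y, ∑ s ∈ range q, (C.pi x * C.P x y * ((C.P ^ s) y z * Γ x y)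
                + C.pi x * C.P x y * ((C.P ^ s) x z * Γ x y))
            = ∑ s ∈ range q, ∑ y, (C.pi x * C.P x y * ((C.P ^ s) y z * Γ x y)
                + C.pi x * C.P x y * ((C.P ^ s) x z * Γ x y)) := fun x => Finset.sum_comm
        rw [Finset.sum_congr rfl fun x _ => e2 x, Finset.sum_comm]
        refine Finset.sum_congr rfl fun s _ => ?_
        simp only [Finset.sum_add_distrib]
    _ = _ := by
        rw [Finset.mul_sum]
        refine Finset.sum_congr rfl fun s _ => ?_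
        rw [hA s, hB s]
        ring

lemma En_Gg (q : ℕ) (β : S → ℝ) (a : S → ℕ → ℝ) (x : S) (i : ℕ) :
    ∑ y, C.P x y * (C.Gg q β a x y i) ^ 2 = C.En (C.Uu q β a i) x := rfl

/-- The expectation of the cubic budget. -/
lemma Ph_expect (q : ℕ) (β : S → ℝ) (a : S → ℕ → ℝ) (N : ℕ) :
    ∑ x, ∑ y, C.pi x * C.P x y * C.Ph q β a x y N
      = 2 * ∑ z, C.pi z * ∑ i ∈ range N, (β z * |a z (i + 1) - a z i|)
          * (C.Eg q β a z i + C.Eg q β a z (i + 1)) := by
  have hsym : ∀ i x y, (C.Gg q β a x y i) ^ 2 + (C.Gg q β a x y (i + 1)) ^ 2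
      = (C.Gg q β a y x i) ^ 2 + (C.Gg q β a y x (i + 1)) ^ 2 := by
    intro i x y
    unfold Gg
    ring
  have h1 : ∀ i z, ∑ x, ∑ y, C.pi x * C.P x y * (C.Wt q x y z *
        ((C.Gg q β a x y i) ^ 2 + (C.Gg q β a x y (i + 1)) ^ 2))
      = 2 * C.pi z * (C.Eg q β a z i + C.Eg q β a z (i + 1)) := by
    intro i z
    rw [C.edge_Wt q _ (hsym i) z]
    unfold Eg
    rw [← Finset.sum_add_distrib]
    congr 1
    refine Finset.sum_congr rfl fun s _ => ?_
    unfold av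
    rw [← Finset.sum_add_distrib]
    refine Finset.sum_congr rfl fun x _ => ?_
    rw [← mul_add]
    congr 1
    rw [← En_Gg, ← En_Gg, ← Finset.sum_add_distrib]
    exact Finset.sum_congr rfl fun y _ => by ring
  calc ∑ x, ∑ y, C.pi x * C.P x y * C.Ph q β a x y N
      = ∑ i ∈ range N, ∑ z, (β z * |a z (i + 1) - a z i|) * ∑ x, ∑ y, C.pi x * C.P x y *
          (C.Wt q x y z * ((C.Gg q β a x y i) ^ 2 + (C.Gg q β a x y (i + 1)) ^ 2)) := by
        have e : ∀ x y, C.pi x * C.P x y * C.Ph q β a x y N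
            = ∑ i ∈ range N, ∑ z, (β z * |a z (i + 1) - a z i|) * (C.pi x * C.P x y *
              (C.Wt q x y z * ((C.Gg q β a x y i) ^ 2 + (C.Gg q β a x y (i + 1)) ^ 2))) := by
          intro x y
          unfold Ph dL
          rw [Finset.mul_sum]
          refine Finset.sum_congr rfl fun i _ => ?_
          rw [Finset.sum_mul, Finset.mul_sum]
          exact Finset.sum_congr rfl fun z _ => by ring
        simp only [e]
        have e2 : ∀ x, ∑ y, ∑ i ∈ range N, ∑ z, (β z * |a z (i + 1) - a z i|) * (C.pi x * C.P x y *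
              (C.Wt q x y z * ((C.Gg q β a x y i) ^ 2 + (C.Gg q β a x y (i + 1)) ^ 2)))
            = ∑ i ∈ range N, ∑ y, ∑ z, (β z * |a z (i + 1) - a z i|) * (C.pi x * C.P x y *
              (C.Wt q x y z * ((C.Gg q β a x y i) ^ 2 + (C.Gg q β a x y (i + 1)) ^ 2))) :=
          fun x => Finset.sum_comm
        rw [Finset.sum_congr rfl fun x _ => e2 x, Finset.sum_comm]
        refine Finset.sum_congr rfl fun i _ => ?_
        have e3 : ∀ x, ∑ y, ∑ z, (β z * |a z (i + 1) - a z i|) * (C.pi x * C.P x y *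
              (C.Wt q x y z * ((C.Gg q β a x y i) ^ 2 + (C.Gg q β a x y (i + 1)) ^ 2)))
            = ∑ z, ∑ y, (β z * |a z (i + 1) - a z i|) * (C.pi x * C.P x y *
              (C.Wt q x y z * ((C.Gg q β a x y i) ^ 2 + (C.Gg q β a x y (i + 1)) ^ 2))) :=
          fun x => Finset.sum_comm
        rw [Finset.sum_congr rfl fun x _ => e3 x, Finset.sum_comm]
        refine Finset.sum_congr rfl fun z _ => ?_
        rw [Finset.mul_sum]
        refine Finset.sum_congr rfl fun x _ => ?_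
        rw [Finset.mul_sum]
    _ = _ := by
        rw [Finset.mul_sum, Finset.sum_comm]
        refine Finset.sum_congr rfl fun z _ => ?_
        rw [Finset.mul_sum, Finset.mul_sum]
        refine Finset.sum_congr rfl fun i _ => ?_
        rw [h1 i z]
        ring

/-- The cubic moment of the bound `Bb`. -/
lemma beta_Bb (hq : 1 ≤ q) (hβ : ∀ z, 0 ≤ β z) :
    ∑ z, C.pi z * (β z * C.Bb q β z) ≤ 5 * (q : ℝ) ^ 2 * ∑ z, C.pi z * (β z) ^ 3 := by
  set X := ∑ z, C.pi z * (β z) ^ 3 with hX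
  have hq0 : (0 : ℝ) < q := by exact_mod_cast hq
  have hmq := C.mean_mq_cube q hβ
  have hav : ∀ s, ∑ z, C.pi z * (C.av s β z) ^ 3 ≤ X := fun s => C.mean_av_cube s hβ
  have hm0 : ∀ z, 0 ≤ C.mq q β z := C.mq_nonneg q hβ
  have ha0 : ∀ s z, 0 ≤ C.av s β z := fun s z => C.av_nonneg s hβ z
  have T1 : ∑ z, C.pi z * (β z * C.av q (fun w => (C.mq q β w) ^ 2) z)
      ≤ (q : ℝ) * q * X := by
    have e := C.av_selfadj q β (fun w => (C.mq q β w) ^ 2)
    have e' : ∑ z, C.pi z * (β z * C.av q (fun w => (C.mq q β w) ^ 2) z)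
        = ∑ z, C.pi z * (C.av q β z * C.mq q β z * C.mq q β z) := by
      calc _ = ∑ z, C.pi z * β z * C.av q (fun w => (C.mq q β w) ^ 2) z :=
            Finset.sum_congr rfl fun z _ => by ring
        _ = _ := e
        _ = _ := Finset.sum_congr rfl fun z _ => by ring
    rw [e']
    exact C.holder3 (ha0 q) hm0 hm0 hq0 hq0 (hav q) hmq hmq
  have T2 : ∀ s, ∑ z, C.pi z * (β z * C.av s (fun w => C.mq q β w * (β w + C.av q β w)) z)
      ≤ 2 * ((q : ℝ) * X) := by
    intro s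
    have e := C.av_selfadj s β (fun w => C.mq q β w * (β w + C.av q β w))
    have e' : ∑ z, C.pi z * (β z * C.av s (fun w => C.mq q β w * (β w + C.av q β w)) z)
        = ∑ z, C.pi z * (C.av s β z * C.mq q β z * β z)
          + ∑ z, C.pi z * (C.av s β z * C.mq q β z * C.av q β z) := by
      calc _ = ∑ z, C.pi z * β z * C.av s (fun w => C.mq q β w * (β w + C.av q β w)) z :=
            Finset.sum_congr rfl fun z _ => by ring
        _ = _ := e
        _ = _ := by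
            rw [← Finset.sum_add_distrib]
            exact Finset.sum_congr rfl fun z _ => by ring
    rw [e']
    have a1 := C.holder3 (ha0 s) hm0 hβ hq0 one_pos (hav s) hmq
      (by rw [one_pow, one_mul])
    have a2 := C.holder3 (ha0 s) hm0 (ha0 q) hq0 one_pos (hav s) hmq
      (by simpa using hav q)
    simp only [mul_one] at a1 a2
    linarith
  have hexp : ∑ z, C.pi z * (β z * C.Bb q β z)
      = ∑ z, C.pi z * (β z * C.av q (fun w => (C.mq q β w) ^ 2) z)
        + 2 * ∑ s ∈ range q, ∑ z, C.pi z *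
            (β z * C.av s (fun w => C.mq q β w * (β w + C.av q β w)) z) := by
    unfold Bb
    rw [Finset.sum_comm (s := range q), Finset.mul_sum, ← Finset.sum_add_distrib]
    refine Finset.sum_congr rfl fun z _ => ?_
    rw [← Finset.mul_sum, ← Finset.mul_sum]
    ring
  rw [hexp]
  have T3 : ∑ s ∈ range q, ∑ z, C.pi z *
      (β z * C.av s (fun w => C.mq q β w * (β w + C.av q β w)) z)
      ≤ ∑ _s ∈ range q, 2 * ((q : ℝ) * X) := Finset.sum_le_sum fun s _ => T2 s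
  rw [Finset.sum_const, Finset.card_range, nsmul_eq_mul] at T3
  nlinarith

/-- The expected cubic budget. -/
lemma Ph_bound (hq : 1 ≤ q) (hβ : ∀ z, 0 ≤ β z) {g m : ℝ} (hg0 : 0 ≤ g) (hg : ∀ z i, |a z i| ≤ g)
    {N : ℕ} (hm : ∀ z, ∑ i ∈ range N, |a z (i + 1) - a z i| ≤ m) (hm0 : 0 ≤ m) :
    ∑ x, ∑ y, C.pi x * C.P x y * C.Ph q β a x y N
      ≤ 20 * m * g ^ 2 * (q : ℝ) ^ 2 * ∑ z, C.pi z * (β z) ^ 3 := by
  rw [C.Ph_expect]
  have hpt : ∀ z, C.pi z * ∑ i ∈ range N, (β z * |a z (i + 1) - a z i|)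
          * (C.Eg q β a z i + C.Eg q β a z (i + 1))
      ≤ (2 * m * g ^ 2) * (C.pi z * (β z * C.Bb q β z)) := by
    intro z
    have hB := C.Bb_nonneg (q := q) hβ z
    have h1 : ∑ i ∈ range N, (β z * |a z (i + 1) - a z i|)
          * (C.Eg q β a z i + C.Eg q β a z (i + 1))
        ≤ ∑ i ∈ range N, (β z * |a z (i + 1) - a z i|) * (2 * (g ^ 2 * C.Bb q β z)) := by
      refine Finset.sum_le_sum fun i _ => mul_le_mul_of_nonneg_left ?_
        (mul_nonneg (hβ z) (abs_nonneg _))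
      have a1 := C.Eg_le (q := q) hβ hg0 hg z i
      have a2 := C.Eg_le (q := q) hβ hg0 hg z (i + 1)
      linarith
    have h2 : ∑ i ∈ range N, (β z * |a z (i + 1) - a z i|) * (2 * (g ^ 2 * C.Bb q β z))
        = (∑ i ∈ range N, |a z (i + 1) - a z i|) * (β z * (2 * (g ^ 2 * C.Bb q β z))) := by
      rw [Finset.sum_mul]
      exact Finset.sum_congr rfl fun i _ => by ring
    have h3 : (∑ i ∈ range N, |a z (i + 1) - a z i|) * (β z * (2 * (g ^ 2 * C.Bb q β z)))
        ≤ m * (β z * (2 * (g ^ 2 * C.Bb q β z))) :=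
      mul_le_mul_of_nonneg_right (hm z) (mul_nonneg (hβ z) (by positivity))
    have h4 := C.pi_nonneg z
    calc _ ≤ C.pi z * (m * (β z * (2 * (g ^ 2 * C.Bb q β z)))) :=
          mul_le_mul_of_nonneg_left (h1.trans (h2.le.trans h3)) h4
      _ = _ := by ring
  calc 2 * ∑ z, C.pi z * ∑ i ∈ range N, (β z * |a z (i + 1) - a z i|)
          * (C.Eg q β a z i + C.Eg q β a z (i + 1))
      ≤ 2 * ∑ z, (2 * m * g ^ 2) * (C.pi z * (β z * C.Bb q β z)) :=
        mul_le_mul_of_nonneg_left (Finset.sum_le_sum fun z _ => hpt z) (by norm_num)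
    _ = 4 * m * g ^ 2 * ∑ z, C.pi z * (β z * C.Bb q β z) := by
        rw [← Finset.mul_sum]; ring
    _ ≤ 4 * m * g ^ 2 * (5 * (q : ℝ) ^ 2 * ∑ z, C.pi z * (β z) ^ 3) :=
        mul_le_mul_of_nonneg_left (C.beta_Bb hq hβ) (by positivity)
    _ = _ := by ring

/-- Stationarity of edge sums. -/
lemma edge_right (h : S → ℝ) : ∑ x, ∑ y, C.pi x * C.P x y * h y = ∑ y, C.pi y * h y := by
  rw [Finset.sum_comm]
  refine Finset.sum_congr rfl fun y _ => ?_
  have : ∀ x, C.pi x * C.P x y * h y = C.pi y * h y * C.P y x := by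
    intro x
    rw [C.rev x y]; ring
  simp only [this]
  rw [← Finset.mul_sum, C.P_sum, mul_one]

lemma edge_left (h : S → ℝ) : ∑ x, ∑ y, C.pi x * C.P x y * h x = ∑ x, C.pi x * h x := by
  refine Finset.sum_congr rfl fun x _ => ?_
  have : ∀ y, C.pi x * C.P x y * h x = C.pi x * h x * C.P x y := fun y => by ring
  simp only [this]
  rw [← Finset.mul_sum, C.P_sum, mul_one]

/-- The third moment of the edge weight. -/
lemma om_cube (hβ : ∀ z, 0 ≤ β z) :
    ∑ x, ∑ y, C.pi x * C.P x y * (C.om q β x y) ^ 3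
      ≤ 8 * (q : ℝ) ^ 3 * ∑ z, C.pi z * (β z) ^ 3 := by
  have pt : ∀ x y, C.pi x * C.P x y * (C.om q β x y) ^ 3
      ≤ 4 * (C.pi x * C.P x y * (C.mq q β y) ^ 3) + 4 * (C.pi x * C.P x y * (C.mq q β x) ^ 3) := by
    intro x y
    have hA := C.mq_nonneg q hβ y
    have hB := C.mq_nonneg q hβ x
    have h : (C.mq q β y + C.mq q β x) ^ 3 ≤ 4 * ((C.mq q β y) ^ 3 + (C.mq q β x) ^ 3) := by
      nlinarith [mul_nonneg (add_nonneg hA hB) (sq_nonneg (C.mq q β y - C.mq q β x))]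
    have hw := mul_nonneg (C.pi_nonneg x) (C.P_nonneg x y)
    calc _ ≤ C.pi x * C.P x y * (4 * ((C.mq q β y) ^ 3 + (C.mq q β x) ^ 3)) :=
          mul_le_mul_of_nonneg_left h hw
      _ = _ := by ring
  calc ∑ x, ∑ y, C.pi x * C.P x y * (C.om q β x y) ^ 3
      ≤ ∑ x, ∑ y, (4 * (C.pi x * C.P x y * (C.mq q β y) ^ 3)
          + 4 * (C.pi x * C.P x y * (C.mq q β x) ^ 3)) :=
        Finset.sum_le_sum fun x _ => Finset.sum_le_sum fun y _ => pt x y
    _ = 4 * ∑ y, C.pi y * (C.mq q β y) ^ 3 + 4 * ∑ x, C.pi x * (C.mq q β x) ^ 3 := by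
        have e1 := C.edge_right (fun w => (C.mq q β w) ^ 3)
        have e2 := C.edge_left (fun w => (C.mq q β w) ^ 3)
        have e3 : ∑ x, ∑ y, (4 * (C.pi x * C.P x y * (C.mq q β y) ^ 3)
            + 4 * (C.pi x * C.P x y * (C.mq q β x) ^ 3))
            = 4 * ∑ x, ∑ y, C.pi x * C.P x y * (C.mq q β y) ^ 3
              + 4 * ∑ x, ∑ y, C.pi x * C.P x y * (C.mq q β x) ^ 3 := by
          simp only [Finset.sum_add_distrib, Finset.mul_sum]
        rw [e3, e1, e2]
    _ ≤ _ := by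
        have := C.mean_mq_cube q hβ
        linarith

end Chain

end Vale.Agent.Lib.P125
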