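import Mathlib

/-!
The Banach space: an interpolation space between sequences of bounded variation and bounded
sequences, realised as a closed subspace of a nested `lp` space.
-/

namespace Vale.Agent.Lib.P125.Mt

open Finset
open scoped ENNReal

/-- Finitely supported sequences with at most `8^ℓ` nonzero entries and initial sums at most
`2^(-ℓ)`. -/
def IsAtom (ℓ : ℕ) (c : ℕ →₀ ℝ) : Prop :=
  c.support.card ≤ 8 ^ ℓ ∧ ∀ n, |∑ j ∈ range n, c j| ≤ (1 / 2) ^ ℓ

/-- The atoms of level `ℓ`. -/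
abbrev Atoms (ℓ : ℕ) : Type := {c : ℕ →₀ ℝ // IsAtom ℓ c}

/-- The exponent `3/2`. -/
noncomputable def p₀ : ℝ≥0∞ := ENNReal.ofReal (3 / 2)

lemma p₀_toReal : p₀.toReal = 3 / 2 := ENNReal.toReal_ofReal (by norm_num)

instance fact_p₀ : Fact (1 ≤ p₀) := ⟨by
  unfold p₀
  exact ENNReal.one_le_ofReal.mpr (by norm_num)⟩

lemma p₀_ne : p₀ ≠ 0 := by
  have := fact_p₀.out
  intro h
  rw [h] at this
  simp at this

/-- Bounded functions on the atoms of level `ℓ`. -/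
def Lev (ℓ : ℕ) : Type := lp (fun _ : Atoms ℓ => ℝ) ⊤

noncomputable instance (ℓ : ℕ) : NormedAddCommGroup (Lev ℓ) :=
  inferInstanceAs (NormedAddCommGroup (lp (fun _ : Atoms ℓ => ℝ) ⊤))

noncomputable instance (ℓ : ℕ) : NormedSpace ℝ (Lev ℓ) :=
  inferInstanceAs (NormedSpace ℝ (lp (fun _ : Atoms ℓ => ℝ) ⊤))

instance (ℓ : ℕ) : CompleteSpace (Lev ℓ) :=
  inferInstanceAs (CompleteSpace (lp (fun _ : Atoms ℓ => ℝ) ⊤))

/-- The ambient space. -/
def Yy : Type := lp Lev p₀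

noncomputable instance : NormedAddCommGroup Yy :=
  inferInstanceAs (NormedAddCommGroup (lp Lev p₀))

noncomputable instance : NormedSpace ℝ Yy :=
  inferInstanceAs (NormedSpace ℝ (lp Lev p₀))

instance : CompleteSpace Yy :=
  inferInstanceAs (CompleteSpace (lp Lev p₀))

/-- Identity, changing the type. -/
def asY (y : Yy) : lp Lev p₀ := y

/-- Identity, changing the type. -/
def asL {ℓ : ℕ} (g : Lev ℓ) : lp (fun _ : Atoms ℓ => ℝ) ⊤ := g

/-- The value of an element of the ambient space at an atom. -/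
noncomputable def val (y : Yy) (ℓ : ℕ) (c : Atoms ℓ) : ℝ := asL ((asY y) ℓ) c

/-- The level norm of an element of the ambient space. -/
noncomputable def lv (y : Yy) (ℓ : ℕ) : ℝ := ‖(asY y) ℓ‖

lemma val_add (y y' : Yy) (ℓ : ℕ) (c : Atoms ℓ) : val (y + y') ℓ c = val y ℓ c + val y' ℓ c := rfl

lemma val_smul (r : ℝ) (y : Yy) (ℓ : ℕ) (c : Atoms ℓ) : val (r • y) ℓ c = r * val y ℓ c := rfl

lemma val_zero (ℓ : ℕ) (c : Atoms ℓ) : val 0 ℓ c = 0 := rfl

lemma lv_nonneg (y : Yy) (ℓ : ℕ) : 0 ≤ lv y ℓ := norm_nonneg _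

lemma abs_val_le_lv (y : Yy) (ℓ : ℕ) (c : Atoms ℓ) : |val y ℓ c| ≤ lv y ℓ :=
  lp.norm_apply_le_norm (E := fun _ : Atoms ℓ => ℝ) (p := ⊤) (by simp) (asL ((asY y) ℓ)) c

lemma lv_le_norm (y : Yy) (ℓ : ℕ) : lv y ℓ ≤ ‖y‖ :=
  lp.norm_apply_le_norm (E := Lev) (p := p₀) p₀_ne (asY y) ℓ

lemma lv_le_of_forall (y : Yy) (ℓ : ℕ) {C : ℝ} (hC : 0 ≤ C) (h : ∀ c, |val y ℓ c| ≤ C) :
    lv y ℓ ≤ C :=
  lp.norm_le_of_forall_le (E := fun _ : Atoms ℓ => ℝ) (f := asL ((asY y) ℓ)) hC h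

/-- The unit atom at position `j`. -/
noncomputable def ej (j : ℕ) : Atoms 0 :=
  ⟨Finsupp.single j 1, by
    constructor
    · calc (Finsupp.single j (1 : ℝ)).support.card ≤ ({j} : Finset ℕ).card :=
            Finset.card_le_card Finsupp.support_single_subset
        _ = 8 ^ 0 := by simp
    · intro n
      rw [pow_zero]
      have : ∑ i ∈ range n, (Finsupp.single j (1 : ℝ)) i = if j < n then 1 else 0 := by
        simp only [Finsupp.single_apply]
        rw [Finset.sum_ite_eq]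
        simp
      rw [this]
      split_ifs <;> norm_num⟩

/-- The coordinate of an element of the ambient space. -/
noncomputable def coord (y : Yy) (j : ℕ) : ℝ := val y 0 (ej j)

lemma coord_add (y y' : Yy) (j : ℕ) : coord (y + y') j = coord y j + coord y' j := rfl

lemma coord_smul (r : ℝ) (y : Yy) (j : ℕ) : coord (r • y) j = r * coord y j := rfl

lemma coord_zero (j : ℕ) : coord 0 j = 0 := rfl

/-- The linearity constraint defining the space. -/
def Lin (y : Yy) : Prop :=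
  ∀ (ℓ : ℕ) (c : Atoms ℓ), val y ℓ c = ∑ j ∈ c.1.support, c.1 j * coord y j

/-- The Banach space `X`. -/
noncomputable def Xx : Submodule ℝ Yy where
  carrier := {y | Lin y}
  add_mem' := by
    intro y y' hy hy' ℓ c
    rw [val_add, hy ℓ c, hy' ℓ c, ← Finset.sum_add_distrib]
    refine Finset.sum_congr rfl fun j _ => ?_
    rw [coord_add]
    ring
  zero_mem' := by
    intro ℓ c
    rw [val_zero]
    symm
    refine Finset.sum_eq_zero fun j _ => ?_
    rw [coord_zero, mul_zero]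
  smul_mem' := by
    intro r y hy ℓ c
    rw [val_smul, hy ℓ c, Finset.mul_sum]
    refine Finset.sum_congr rfl fun j _ => ?_
    rw [coord_smul]
    ring

lemma abs_val_le (y : Yy) (ℓ : ℕ) (c : Atoms ℓ) : |val y ℓ c| ≤ ‖y‖ :=
  (abs_val_le_lv y ℓ c).trans (lv_le_norm y ℓ)

lemma continuous_val (ℓ : ℕ) (c : Atoms ℓ) : Continuous fun y : Yy => val y ℓ c := by
  let φ : Yy →+ ℝ :=
    { toFun := fun y => val y ℓ c
      map_zero' := rfl
      map_add' := fun _ _ => rfl }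
  exact AddMonoidHomClass.continuous_of_bound φ 1 (fun y => by
    rw [one_mul]
    exact abs_val_le y ℓ c)

lemma isClosed_Xx : IsClosed (Xx : Set Yy) := by
  have : (Xx : Set Yy) = ⋂ (ℓ : ℕ) (c : Atoms ℓ),
      {y : Yy | val y ℓ c = ∑ j ∈ c.1.support, c.1 j * coord y j} := by
    ext y
    simp only [Set.mem_iInter]
    rfl
  rw [this]
  refine isClosed_iInter fun ℓ => isClosed_iInter fun c => ?_
  refine isClosed_eq (continuous_val ℓ c) ?_
  refine continuous_finsetSum _ fun j _ => continuous_const.mul ?_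
  exact continuous_val 0 (ej j)

instance : CompleteSpace Xx := isClosed_Xx.completeSpace_coe

/-- Coordinates are bounded by the norm. -/
lemma abs_coord_le (y : Yy) (j : ℕ) : |coord y j| ≤ ‖y‖ := abs_val_le y 0 (ej j)

/-- The norm to the power `3/2` is the sum over levels. -/
lemma norm_rpow_eq (y : Yy) :
    ‖y‖ ^ (3 / 2 : ℝ) = ∑' ℓ, (lv y ℓ) ^ (3 / 2 : ℝ) := by
  have := lp.norm_rpow_eq_tsum (E := Lev) (p := p₀) (by rw [p₀_toReal]; norm_num) (asY y)
  rwa [p₀_toReal] at this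

lemma summable_lv (y : Yy) : Summable fun ℓ => (lv y ℓ) ^ (3 / 2 : ℝ) := by
  have := (lp.memℓp (E := Lev) (p := p₀) (asY y)).summable (by rw [p₀_toReal]; norm_num)
  rwa [p₀_toReal] at this

/-- A level norm is the supremum over atoms. -/
lemma exists_atom_close (y : Yy) (hy : y ∈ Xx) (ℓ : ℕ) {ε : ℝ} (hε : 0 < ε) :
    ∃ c : Atoms ℓ, lv y ℓ - ε ≤ val y ℓ c := by
  by_contra hcon
  push Not at hcon
  -- the negative of an atom is an atom
  have hneg : ∀ c : Atoms ℓ, IsAtom ℓ (-c.1) := by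
    intro c
    constructor
    · simpa [Finsupp.support_neg] using c.2.1
    · intro n
      have : ∑ j ∈ range n, (-c.1) j = -∑ j ∈ range n, c.1 j := by
        simp [Finset.sum_neg_distrib]
      rw [this, abs_neg]
      exact c.2.2 n
  have hval : ∀ c : Atoms ℓ, val y ℓ ⟨-c.1, hneg c⟩ = -val y ℓ c := by
    intro c
    rw [hy ℓ c, hy ℓ ⟨-c.1, hneg c⟩, ← Finset.sum_neg_distrib]
    have hs : (-c.1).support = c.1.support := Finsupp.support_neg c.1
    simp only [hs]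
    refine Finset.sum_congr rfl fun j _ => ?_
    simp
  have habs : ∀ c : Atoms ℓ, |val y ℓ c| ≤ lv y ℓ - ε := by
    intro c
    rw [abs_le]
    constructor
    · have := hcon ⟨-c.1, hneg c⟩
      rw [hval] at this
      linarith
    · exact (hcon c).le
  have h0 : IsAtom ℓ 0 := by
    constructor
    · simp
    · intro n
      simp
  have hnn : 0 ≤ lv y ℓ - ε := (abs_nonneg _).trans (habs ⟨0, h0⟩)
  have : lv y ℓ ≤ lv y ℓ - ε := lv_le_of_forall y ℓ hnn habs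
  linarith

/-- Construction of elements of the ambient space from a sequence. -/
noncomputable def mkY (F : ℕ → ℝ) (b : ℕ → ℝ)
    (hF : ∀ ℓ (c : Atoms ℓ), |∑ j ∈ c.1.support, c.1 j * F j| ≤ b ℓ)
    (hs : Summable fun ℓ => (b ℓ) ^ (3 / 2 : ℝ)) (hb : ∀ ℓ, 0 ≤ b ℓ) : Yy :=
  (⟨fun ℓ => (⟨fun c => ∑ j ∈ c.1.support, c.1 j * F j,
      memℓp_infty ⟨b ℓ, by
        rintro _ ⟨c, rfl⟩
        exact hF ℓ c⟩⟩ : lp (fun _ : Atoms ℓ => ℝ) ⊤), by
    refine memℓp_gen ?_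
    rw [p₀_toReal]
    refine Summable.of_nonneg_of_le (fun ℓ => by positivity) (fun ℓ => ?_) hs
    refine Real.rpow_le_rpow (norm_nonneg _) ?_ (by norm_num)
    exact lp.norm_le_of_forall_le (hb ℓ) (fun c => hF ℓ c)⟩ : lp Lev p₀)

lemma val_mkY (F : ℕ → ℝ) (b : ℕ → ℝ)
    (hF : ∀ ℓ (c : Atoms ℓ), |∑ j ∈ c.1.support, c.1 j * F j| ≤ b ℓ)
    (hs : Summable fun ℓ => (b ℓ) ^ (3 / 2 : ℝ)) (hb : ∀ ℓ, 0 ≤ b ℓ) (ℓ : ℕ) (c : Atoms ℓ) :
    val (mkY F b hF hs hb) ℓ c = ∑ j ∈ c.1.support, c.1 j * F j := rfl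

lemma coord_mkY (F : ℕ → ℝ) (b : ℕ → ℝ)
    (hF : ∀ ℓ (c : Atoms ℓ), |∑ j ∈ c.1.support, c.1 j * F j| ≤ b ℓ)
    (hs : Summable fun ℓ => (b ℓ) ^ (3 / 2 : ℝ)) (hb : ∀ ℓ, 0 ≤ b ℓ) (j : ℕ) :
    coord (mkY F b hF hs hb) j = F j := by
  unfold coord
  rw [val_mkY]
  have hsupp : (ej j).1.support ⊆ {j} := Finsupp.support_single_subset
  rw [Finset.sum_subset hsupp (fun i _ hi => by
    have : (ej j).1 i = 0 := Finsupp.notMem_support_iff.mp hi
    rw [this, zero_mul])]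
  have : (ej j).1 j = 1 := Finsupp.single_eq_same
  simp [this]

lemma mkY_mem (F : ℕ → ℝ) (b : ℕ → ℝ)
    (hF : ∀ ℓ (c : Atoms ℓ), |∑ j ∈ c.1.support, c.1 j * F j| ≤ b ℓ)
    (hs : Summable fun ℓ => (b ℓ) ^ (3 / 2 : ℝ)) (hb : ∀ ℓ, 0 ≤ b ℓ) :
    mkY F b hF hs hb ∈ Xx := by
  intro ℓ c
  rw [val_mkY]
  refine Finset.sum_congr rfl fun j _ => ?_
  rw [coord_mkY]

lemma mkY_norm_le (F : ℕ → ℝ) (b : ℕ → ℝ)
    (hF : ∀ ℓ (c : Atoms ℓ), |∑ j ∈ c.1.support, c.1 j * F j| ≤ b ℓ)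
    (hs : Summable fun ℓ => (b ℓ) ^ (3 / 2 : ℝ)) (hb : ∀ ℓ, 0 ≤ b ℓ) :
    ‖mkY F b hF hs hb‖ ^ (3 / 2 : ℝ) ≤ ∑' ℓ, (b ℓ) ^ (3 / 2 : ℝ) := by
  rw [norm_rpow_eq]
  refine Summable.tsum_le_tsum (fun ℓ => ?_) (summable_lv _) hs
  refine Real.rpow_le_rpow (lv_nonneg _ _) ?_ (by norm_num)
  refine lv_le_of_forall _ ℓ (hb ℓ) (fun c => ?_)
  rw [val_mkY]
  exact hF ℓ c

/-- The sum of an atom over a final segment is small. -/
lemma atom_tail {ℓ : ℕ} (c : Atoms ℓ) (i : ℕ) :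
    |∑ j ∈ c.1.support, c.1 j * (if i ≤ j then (1 : ℝ) else 0)| ≤ 2 * (1 / 2) ^ ℓ := by
  obtain ⟨M, hM⟩ := Finset.exists_nat_subset_range c.1.support
  have h1 : ∑ j ∈ c.1.support, c.1 j * (if i ≤ j then (1 : ℝ) else 0)
      = ∑ j ∈ range (M + i), c.1 j * (if i ≤ j then (1 : ℝ) else 0) := by
    refine Finset.sum_subset (hM.trans (Finset.range_subset_range.mpr (by omega))) (fun j _ hj => ?_)
    have : c.1 j = 0 := by simpa using hj
    rw [this, zero_mul]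
  have h2 : ∀ k, ∑ j ∈ range (i + k), c.1 j * (if i ≤ j then (1 : ℝ) else 0)
      = ∑ j ∈ range (i + k), c.1 j - ∑ j ∈ range i, c.1 j := by
    intro k
    induction k with
    | zero =>
      rw [add_zero, sub_self]
      refine Finset.sum_eq_zero fun j hj => ?_
      have := Finset.mem_range.mp hj
      rw [if_neg (by omega), mul_zero]
    | succ k ih =>
      rw [← add_assoc, Finset.sum_range_succ, ih, Finset.sum_range_succ, if_pos (by omega)]
      ring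
  rw [h1, add_comm M i, h2]
  have a1 := c.2.2 (i + M)
  have a2 := c.2.2 i
  have := abs_sub (∑ j ∈ range (i + M), c.1 j) (∑ j ∈ range i, c.1 j)
  linarith

lemma summable_b : Summable fun ℓ : ℕ => ((2 : ℝ) * (1 / 2) ^ ℓ) ^ (3 / 2 : ℝ) := by
  have e : ∀ ℓ : ℕ, ((2 : ℝ) * (1 / 2) ^ ℓ) ^ (3 / 2 : ℝ)
      = 2 ^ (3 / 2 : ℝ) * ((1 / 2 : ℝ) ^ (3 / 2 : ℝ)) ^ ℓ := by
    intro ℓ
    rw [Real.mul_rpow (by norm_num) (by positivity)]
    congr 1
    rw [← Real.rpow_natCast, ← Real.rpow_mul (by norm_num), mul_comm, Real.rpow_mul (by norm_num),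
      Real.rpow_natCast]
  simp only [e]
  refine Summable.mul_left _ (summable_geometric_of_lt_one (by positivity) ?_)
  exact Real.rpow_lt_one (by norm_num) (by norm_num) (by norm_num)

/-- The indicator of the final segment from `i`, as an element of the space. -/
noncomputable def xi (i : ℕ) : Yy :=
  mkY (fun j => if i ≤ j then 1 else 0) (fun ℓ => 2 * (1 / 2) ^ ℓ)
    (fun _ c => atom_tail c i) summable_b (fun _ => by positivity)

lemma xi_mem (i : ℕ) : xi i ∈ Xx := mkY_mem _ _ _ _ _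

lemma coord_xi (i j : ℕ) : coord (xi i) j = if i ≤ j then 1 else 0 := coord_mkY _ _ _ _ _ _

/-- A uniform bound for the norms of the final segments. -/
lemma xi_norm_le : ∃ C₀ : ℝ, 0 ≤ C₀ ∧ ∀ i, ‖xi i‖ ≤ C₀ := by
  set T := ∑' ℓ : ℕ, ((2 : ℝ) * (1 / 2) ^ ℓ) ^ (3 / 2 : ℝ) with hT
  have hT0 : 0 ≤ T := tsum_nonneg fun ℓ => by positivity
  refine ⟨T ^ (2 / 3 : ℝ), by positivity, fun i => ?_⟩
  have h := mkY_norm_le (fun j => if i ≤ j then 1 else 0) (fun ℓ => 2 * (1 / 2) ^ ℓ)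
    (fun _ c => atom_tail c i) summable_b (fun _ => by positivity)
  have h2 : ‖xi i‖ ^ (3 / 2 : ℝ) ≤ T := h
  have h3 := Real.rpow_le_rpow (by positivity) h2 (by norm_num : (0 : ℝ) ≤ 2 / 3)
  rw [← Real.rpow_mul (norm_nonneg _)] at h3
  norm_num at h3
  exact h3

/-- The space is not superreflexive: no equivalent norm is uniformly convex. -/
theorem not_uniformly_convex :
    ¬ ∃ (p : Xx → ℝ) (a b : ℝ), 0 < a ∧ 0 < b ∧ (∀ x y, p (x + y) ≤ p x + p y) ∧
      (∀ (r : ℝ) x, p (r • x) = |r| * p x) ∧ (∀ x, a * ‖x‖ ≤ p x ∧ p x ≤ b * ‖x‖) ∧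
      ∀ ε : ℝ, 0 < ε → ε ≤ 2 → ∃ δ : ℝ, 0 < δ ∧ ∀ x y, p x ≤ 1 → p y ≤ 1 → ε ≤ p (x - y) →
        p ((1 / 2 : ℝ) • (x + y)) ≤ 1 - δ := by
  rintro ⟨p, a, b, ha, hb, hadd, hhom, heq, huc⟩
  obtain ⟨C₀, hC₀, hxi⟩ := xi_norm_le
  set R : ℝ := b * C₀ + 1 with hR
  have hRpos : 0 < R := by positivity
  set ε₀ : ℝ := min (a / R) 2 with hε₀
  have hε₀pos : 0 < ε₀ := lt_min (by positivity) (by norm_num)
  obtain ⟨δ', hδ', hunif⟩ := huc ε₀ hε₀pos (min_le_right _ _)
  set δ : ℝ := min δ' (1 / 2) with hδ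
  have hδpos : 0 < δ := lt_min hδ' (by norm_num)
  have hδle : δ ≤ 1 / 2 := min_le_right _ _
  have hq0 : 0 < 1 - δ := by linarith
  have hneg : ∀ x, p (-x) = p x := by
    intro x
    have := hhom (-1) x
    simpa using this
  -- separation by a coordinate
  have hsep : ∀ (u v : Xx) (j : ℕ), coord u.1 j = 1 → coord v.1 j = 0 → a ≤ p (u - v) := by
    intro u v j hu hv
    have h1 : coord (u - v : Xx).1 j = 1 := by
      have e : (u - v : Xx).1 = u.1 + (-1 : ℝ) • v.1 := by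
        simp [sub_eq_add_neg]
      rw [e, coord_add, coord_smul, hu, hv]
      norm_num
    have h2 := abs_coord_le (u - v : Xx).1 j
    rw [h1, abs_one] at h2
    have h3 := (heq (u - v)).1
    have h4 : ‖(u - v : Xx)‖ = ‖(u - v : Xx).1‖ := rfl
    rw [h4] at h3
    nlinarith
  -- the dyadic induction
  have hind : ∀ (m s : ℕ), ∃ u : Xx, (∀ j, j < s → coord u.1 j = 0) ∧
      (∀ j, s + 2 ^ m ≤ j + 1 → coord u.1 j = 1) ∧ p u ≤ R * (1 - δ) ^ m := by
    intro m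
    induction m with
    | zero =>
      intro s
      refine ⟨⟨xi s, xi_mem s⟩, fun j hj => ?_, fun j hj => ?_, ?_⟩
      · show coord (xi s) j = 0
        rw [coord_xi, if_neg (by omega)]
      · show coord (xi s) j = 1
        rw [coord_xi, if_pos (by simp at hj; omega)]
      · have h1 := (heq ⟨xi s, xi_mem s⟩).2
        have h2 : ‖(⟨xi s, xi_mem s⟩ : Xx)‖ ≤ C₀ := hxi s
        have h3 : b * ‖(⟨xi s, xi_mem s⟩ : Xx)‖ ≤ b * C₀ := mul_le_mul_of_nonneg_left h2 hb.le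
        simp only [pow_zero, mul_one]
        linarith
    | succ m ih =>
      intro s
      obtain ⟨u, hu0, hu1, hup⟩ := ih s
      obtain ⟨v, hv0, hv1, hvp⟩ := ih (s + 2 ^ m)
      set Rm : ℝ := R * (1 - δ) ^ m with hRm
      have hRmpos : 0 < Rm := by positivity
      have hRmle : Rm ≤ R := by
        have : (1 - δ) ^ m ≤ 1 := pow_le_one₀ hq0.le (by linarith)
        nlinarith
      have hsepuv : a ≤ p (u - v) := by
        refine hsep u v (s + 2 ^ m - 1) (hu1 _ ?_) (hv0 _ ?_)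
        · have : 1 ≤ 2 ^ m := Nat.one_le_two_pow
          omega
        · have : 1 ≤ 2 ^ m := Nat.one_le_two_pow
          omega
      -- rescale
      have hinv : 0 < Rm⁻¹ := by positivity
      have hx : p (Rm⁻¹ • u) ≤ 1 := by
        rw [hhom, abs_of_pos hinv, inv_mul_le_iff₀ hRmpos, mul_one]
        exact hup
      have hy : p (Rm⁻¹ • v) ≤ 1 := by
        rw [hhom, abs_of_pos hinv, inv_mul_le_iff₀ hRmpos, mul_one]
        exact hvp
      have hxy : ε₀ ≤ p (Rm⁻¹ • u - Rm⁻¹ • v) := by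
        rw [← smul_sub, hhom, abs_of_pos hinv]
        have h1 : ε₀ ≤ a / R := min_le_left _ _
        have h2 : a / R ≤ a / Rm := div_le_div_of_nonneg_left ha.le hRmpos hRmle
        have h3 : a / Rm ≤ Rm⁻¹ * p (u - v) := by
          rw [div_eq_inv_mul]
          exact mul_le_mul_of_nonneg_left hsepuv hinv.le
        linarith
      have hmid := hunif _ _ hx hy hxy
      have hmid2 : p ((1 / 2 : ℝ) • (u + v)) ≤ Rm * (1 - δ) := by
        have e : (1 / 2 : ℝ) • (Rm⁻¹ • u + Rm⁻¹ • v) = Rm⁻¹ • ((1 / 2 : ℝ) • (u + v)) := by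
          rw [← smul_add, smul_comm]
        rw [e, hhom, abs_of_pos hinv] at hmid
        have h1 : Rm⁻¹ * p ((1 / 2 : ℝ) • (u + v)) ≤ 1 - δ := by
          have : (1 : ℝ) - δ' ≤ 1 - δ := by
            have : δ ≤ δ' := min_le_left _ _
            linarith
          linarith
        rw [inv_mul_le_iff₀ hRmpos] at h1
        exact h1
      refine ⟨(1 / 2 : ℝ) • (u + v), fun j hj => ?_, fun j hj => ?_, ?_⟩
      · have e : ((1 / 2 : ℝ) • (u + v) : Xx).1 = (1 / 2 : ℝ) • (u.1 + v.1) := rfl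
        have h1 : 1 ≤ 2 ^ m := Nat.one_le_two_pow
        rw [e, coord_smul, coord_add, hu0 j hj, hv0 j (by omega)]
        norm_num
      · have e : ((1 / 2 : ℝ) • (u + v) : Xx).1 = (1 / 2 : ℝ) • (u.1 + v.1) := rfl
        have h2 : 2 ^ (m + 1) = 2 ^ m + 2 ^ m := by rw [pow_succ]; ring
        have h1 : 1 ≤ 2 ^ m := Nat.one_le_two_pow
        rw [e, coord_smul, coord_add, hu1 j (by omega), hv1 j (by omega)]
        norm_num
      · rw [pow_succ, ← mul_assoc]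
        exact hmid2
  -- contradiction
  obtain ⟨m, hm⟩ := exists_pow_lt_of_lt_one (show 0 < a / (2 * R) by positivity)
    (show 1 - δ < 1 by linarith)
  obtain ⟨u, _, hu1, hup⟩ := hind m 0
  obtain ⟨v, hv0, _, hvp⟩ := hind m (0 + 2 ^ m)
  have hsepuv : a ≤ p (u - v) := by
    refine hsep u v (0 + 2 ^ m - 1) (hu1 _ ?_) (hv0 _ ?_)
    · have : 1 ≤ 2 ^ m := Nat.one_le_two_pow
      omega
    · have : 1 ≤ 2 ^ m := Nat.one_le_two_pow
      omega
  have htri : p (u - v) ≤ p u + p v := by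
    rw [sub_eq_add_neg]
    have := hadd u (-v)
    rwa [hneg] at this
  have hm2 : R * (1 - δ) ^ m < a / 2 := by
    have : (1 - δ) ^ m * (2 * R) < a := by
      rwa [lt_div_iff₀ (by positivity)] at hm
    linarith
  linarith

end Vale.Agent.Lib.P125.Mt
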