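import Vale.Agent.Lib.P125.Mt.Core
import Vale.Agent.Lib.P125.Mt.Space

/-!
The mean displacement inequality in the space `Xx`.
-/

namespace Vale.Agent.Lib.P125.Mt

open Finset Matrix

/-- The atom attached to a step function. -/
noncomputable def stepAtom (D : ℕ → ℝ) (N : ℕ) : ℕ →₀ ℝ :=
  Finsupp.onFinset (range N) (fun j => if j < N then D (j + 1) - D j else 0) (by
    intro j hj
    by_cases h : j < N
    · exact Finset.mem_range.mpr h
    · simp [h] at hj)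

lemma stepAtom_apply (D : ℕ → ℝ) (N j : ℕ) :
    stepAtom D N j = if j < N then D (j + 1) - D j else 0 := rfl

lemma stepAtom_sums (D : ℕ → ℝ) (N n : ℕ) :
    ∑ j ∈ range n, stepAtom D N j = D (min n N) - D 0 := by
  induction n with
  | zero => simp
  | succ n ih =>
    rw [Finset.sum_range_succ, ih, stepAtom_apply]
    by_cases h : n < N
    · rw [if_pos h, min_eq_left (by omega), min_eq_left (by omega)]
      ring
    · rw [if_neg h, min_eq_right (by omega), min_eq_right (by omega)]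
      ring

lemma stepAtom_support (D : ℕ → ℝ) (N : ℕ) :
    (stepAtom D N).support ⊆ (range N).filter (fun j => D (j + 1) ≠ D j) := by
  intro j hj
  have h0 : stepAtom D N j ≠ 0 := Finsupp.mem_support_iff.mp hj
  rw [stepAtom_apply] at h0
  by_cases h : j < N
  · rw [if_pos h] at h0
    exact Finset.mem_filter.mpr ⟨Finset.mem_range.mpr h, fun e => h0 (by rw [e, sub_self])⟩
  · rw [if_neg h] at h0
    exact absurd rfl h0

/-- The level norms bound the pairings against step functions. -/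
lemma pair_of_mem {y : Yy} (hy : y ∈ Xx) (N : ℕ) : PairBd (coord y) N (lv y) := by
  intro k D hD0 hDb hjc
  have hatom : IsAtom k (stepAtom D N) := by
    constructor
    · exact (Finset.card_le_card (stepAtom_support D N)).trans hjc
    · intro n
      rw [stepAtom_sums, hD0, sub_zero]
      exact hDb _ (min_le_right _ _)
  have h1 := abs_val_le_lv y k ⟨stepAtom D N, hatom⟩
  rw [hy k ⟨stepAtom D N, hatom⟩] at h1
  have h2 : ∑ j ∈ (stepAtom D N).support, stepAtom D N j * coord y j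
      = ∑ j ∈ range N, coord y j * (D (j + 1) - D j) := by
    have hsub : (stepAtom D N).support ⊆ range N :=
      (stepAtom_support D N).trans (Finset.filter_subset _ _)
    rw [Finset.sum_subset hsub (fun j _ hj => by
      rw [Finsupp.notMem_support_iff.mp hj, zero_mul])]
    refine Finset.sum_congr rfl fun j hj => ?_
    rw [stepAtom_apply, if_pos (Finset.mem_range.mp hj)]
    ring
  rw [← h2]
  exact h1

/-- The labels attached to an atom. -/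
noncomputable def lbl {ℓ : ℕ} (c : Atoms ℓ) (i : ℕ) : ℝ := ∑ j ∈ range i, c.1 j

lemma lbl_zero {ℓ : ℕ} (c : Atoms ℓ) : lbl c 0 = 0 := by simp [lbl]

lemma lbl_abs {ℓ : ℕ} (c : Atoms ℓ) (i : ℕ) : |lbl c i| ≤ (1 / 2) ^ ℓ := c.2.2 i

lemma lbl_succ {ℓ : ℕ} (c : Atoms ℓ) (i : ℕ) : lbl c (i + 1) - lbl c i = c.1 i := by
  unfold lbl
  rw [Finset.sum_range_succ]
  ring

lemma lbl_l1 {ℓ : ℕ} (c : Atoms ℓ) (N : ℕ) :
    ∑ i ∈ range N, |lbl c (i + 1) - lbl c i| ≤ 2 * 4 ^ ℓ := by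
  have hb : ∀ i, |c.1 i| ≤ 2 * (1 / 2) ^ ℓ := by
    intro i
    rw [← lbl_succ]
    have a1 := lbl_abs c (i + 1)
    have a2 := lbl_abs c i
    have := abs_sub (lbl c (i + 1)) (lbl c i)
    linarith
  calc ∑ i ∈ range N, |lbl c (i + 1) - lbl c i|
      = ∑ i ∈ (range N).filter (fun i => c.1 i ≠ 0), |c.1 i| := by
        rw [Finset.sum_filter_of_ne]
        · exact Finset.sum_congr rfl fun i _ => by rw [lbl_succ]
        · intro i _ hi e
          rw [e] at hi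
          simp at hi
    _ ≤ ∑ _i ∈ (range N).filter (fun i => c.1 i ≠ 0), (2 * (1 / 2) ^ ℓ : ℝ) :=
        Finset.sum_le_sum fun i _ => hb i
    _ = ((range N).filter (fun i => c.1 i ≠ 0)).card * (2 * (1 / 2) ^ ℓ : ℝ) := by
        rw [Finset.sum_const, nsmul_eq_mul]
    _ ≤ (8 ^ ℓ : ℝ) * (2 * (1 / 2) ^ ℓ) := by
        refine mul_le_mul_of_nonneg_right ?_ (by positivity)
        have h1 : ((range N).filter (fun i => c.1 i ≠ 0)).card ≤ c.1.support.card := by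
          refine Finset.card_le_card fun i hi => ?_
          exact Finsupp.mem_support_iff.mpr (Finset.mem_filter.mp hi).2
        have h2 := h1.trans c.2.1
        exact_mod_cast h2
    _ = 2 * 4 ^ ℓ := by
        have : (8 : ℝ) ^ ℓ * (1 / 2) ^ ℓ = 4 ^ ℓ := by rw [← mul_pow]; norm_num
        calc (8 : ℝ) ^ ℓ * (2 * (1 / 2) ^ ℓ) = 2 * ((8 : ℝ) ^ ℓ * (1 / 2) ^ ℓ) := by ring
          _ = _ := by rw [this]

/-- The coordinate as a linear map on `Xx`. -/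
noncomputable def coordL (j : ℕ) : Xx →ₗ[ℝ] ℝ where
  toFun u := coord u.1 j
  map_add' _ _ := rfl
  map_smul' _ _ := rfl

lemma sqrt_cube {t : ℝ} (ht : 0 ≤ t) : (Real.sqrt t) ^ 3 = t ^ (3 / 2 : ℝ) := by
  rw [Real.sqrt_eq_rpow, ← Real.rpow_natCast, ← Real.rpow_mul ht]
  norm_num

lemma sqrt_mul_self' {t : ℝ} (ht : 0 ≤ t) : (Real.sqrt t) * t = (Real.sqrt t) ^ 3 := by
  have := Real.sq_sqrt ht
  calc (Real.sqrt t) * t = (Real.sqrt t) * (Real.sqrt t) ^ 2 := by rw [this]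
    _ = _ := by ring

lemma le_of_forall_eps {A B E : ℝ} (hE : 0 ≤ E) (h : ∀ ε : ℝ, 0 < ε → A - ε * E ≤ B) : A ≤ B := by
  by_contra hcon
  push Not at hcon
  have hd : 0 < A - B := by linarith
  have hε : 0 < (A - B) / (2 * (E + 1)) := by positivity
  have h1 := h _ hε
  have h2 : (A - B) / (2 * (E + 1)) * E ≤ (A - B) / 2 := by
    have hpos : 0 < 2 * (E + 1) := by positivity
    rw [div_mul_eq_mul_div, div_le_div_iff₀ hpos (by norm_num)]
    nlinarith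
  linarith

end Vale.Agent.Lib.P125.Mt

namespace Vale.Agent.Lib.P125.Chain

open Finset Matrix Vale.Agent.Lib.P125.Mt

variable {S : Type} [Fintype S] [DecidableEq S] (C : Chain S)

/-- The mean displacement. -/
noncomputable def Hh' (g : S → Xx) (q : ℕ) (z : S) : Xx :=
  ∑ y, (C.P ^ q) z y • g y - g z

lemma coord_Hh' (g : S → Xx) (q : ℕ) (z : S) (j : ℕ) :
    coord (C.Hh' g q z).1 j = C.av q (fun w => coord (g w).1 j) z - coord (g z).1 j := by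
  have : coord (C.Hh' g q z).1 j = coordL j (C.Hh' g q z) := rfl
  rw [this]
  unfold Hh' av
  rw [map_sub, map_sum]
  simp only [map_smul, smul_eq_mul]
  rfl

/-- The edge sum of the norms to the power `3/2`. -/
noncomputable def Wn (g : S → Xx) : ℝ :=
  ∑ x, ∑ y, C.pi x * C.P x y * ‖(g y - g x : Xx)‖ ^ (3 / 2 : ℝ)

lemma Wn_nonneg (g : S → Xx) : 0 ≤ C.Wn g :=
  Finset.sum_nonneg fun x _ => Finset.sum_nonneg fun y _ =>
    mul_nonneg (mul_nonneg (C.pi_nonneg x) (C.P_nonneg x y)) (by positivity)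

/-- The partial level sum of the mean displacement. -/
noncomputable def Rn (g : S → Xx) (q L : ℕ) : ℝ :=
  ∑ z, C.pi z * ∑ ℓ ∈ range L, (Real.sqrt (lv (C.Hh' g q z).1 ℓ)) ^ 3

lemma Rn_nonneg (g : S → Xx) (q L : ℕ) : 0 ≤ C.Rn g q L :=
  Finset.sum_nonneg fun z _ => mul_nonneg (C.pi_nonneg z)
    (Finset.sum_nonneg fun ℓ _ => by positivity)

lemma level_sum_bound (g : S → Xx) {q : ℕ} (hq : 1 ≤ q) (n : ℕ) (hqn : q ≤ 8 ^ n) (L : ℕ) {ρ σ : ℝ}
    (hρ : 0 < ρ) (hσ : 0 < σ) (hX : C.Rn g q L ≤ ρ ^ 3) (hW : C.Wn g ≤ σ ^ 3) :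
    C.Rn g q L ≤ (2 ^ 8 * 4 ^ n * (2 * n + 4)) * (ρ * σ ^ 2) := by
  set β : ℕ → S → ℝ := fun ℓ z => Real.sqrt (lv (C.Hh' g q z).1 ℓ) with hβdef
  have hβ : ∀ ℓ z, 0 ≤ β ℓ z := fun ℓ z => Real.sqrt_nonneg _
  set Eβ : ℝ := ∑ z, C.pi z * ∑ ℓ ∈ range L, β ℓ z with hEβ
  have hEβ0 : 0 ≤ Eβ := Finset.sum_nonneg fun z _ => mul_nonneg (C.pi_nonneg z)
    (Finset.sum_nonneg fun ℓ _ => hβ ℓ z)
  refine le_of_forall_eps hEβ0 fun ε hε => ?_
  choose c hc using fun (ℓ : ℕ) (z : S) => exists_atom_close (C.Hh' g q z).1 (C.Hh' g q z).2 ℓ hε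
  set a : ℕ → S → ℕ → ℝ := fun ℓ z i => lbl (c ℓ z) i with ha
  obtain ⟨N, hN⟩ := Finset.exists_nat_subset_range
    ((range L).biUnion fun ℓ => univ.biUnion fun z => (c ℓ z).1.support)
  have hsuppN : ∀ ℓ ∈ range L, ∀ z, (c ℓ z).1.support ⊆ range N := by
    intro ℓ hℓ z j hj
    exact hN (Finset.mem_biUnion.mpr ⟨ℓ, hℓ, Finset.mem_biUnion.mpr ⟨z, Finset.mem_univ z, hj⟩⟩)
  set f : S → ℕ → ℝ := fun w j => coord (g w).1 j with hf
  set B : S → S → ℕ → ℝ := fun x y k => Real.sqrt (lv (g y - g x : Xx).1 k) with hB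
  have hB0 : ∀ x y k, 0 ≤ B x y k := fun x y k => Real.sqrt_nonneg _
  have hpair : ∀ x y, PairBd (fun j => f y j - f x j) N (fun k => (B x y k) ^ 2) := by
    intro x y
    have h1 := pair_of_mem (g y - g x : Xx).2 N
    have e1 : (fun j => f y j - f x j) = coord (g y - g x : Xx).1 := by
      funext j
      have : coord (g y - g x : Xx).1 j = coordL j (g y - g x) := rfl
      rw [this, map_sub]
      rfl
    have e2 : (fun k => (B x y k) ^ 2) = lv (g y - g x : Xx).1 := by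
      funext k
      exact Real.sq_sqrt (lv_nonneg _ _)
    rw [e1, e2]
    exact h1
  have hW' : ∑ k ∈ range (N + 2), ∑ x, ∑ y, C.pi x * C.P x y * (B x y k) ^ 3 ≤ σ ^ 3 := by
    have step1 : ∑ k ∈ range (N + 2), ∑ x, ∑ y, C.pi x * C.P x y * (B x y k) ^ 3
        = ∑ x, ∑ y, C.pi x * C.P x y * ∑ k ∈ range (N + 2), (B x y k) ^ 3 := by
      rw [Finset.sum_comm]
      refine Finset.sum_congr rfl fun x _ => ?_
      rw [Finset.sum_comm]
      refine Finset.sum_congr rfl fun y _ => ?_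
      rw [Finset.mul_sum]
    rw [step1]
    refine le_trans ?_ hW
    · refine C.edge_mono fun x y => ?_
      have e : ∀ k, (B x y k) ^ 3 = (lv (g y - g x : Xx).1 k) ^ (3 / 2 : ℝ) :=
        fun k => sqrt_cube (lv_nonneg _ _)
      simp only [e]
      have h2 := (summable_lv (g y - g x : Xx).1).sum_le_tsum (range (N + 2))
        (fun k _ => by have := lv_nonneg (g y - g x : Xx).1 k; positivity)
      rw [← norm_rpow_eq] at h2
      exact h2
  have hX' : ∑ ℓ ∈ range L, ∑ z, C.pi z * (β ℓ z) ^ 3 ≤ ρ ^ 3 := by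
    refine le_trans (le_of_eq ?_) hX
    unfold Rn
    rw [Finset.sum_comm]
    refine Finset.sum_congr rfl fun z _ => ?_
    rw [Finset.mul_sum]
  have hcore := C.core n hq hqn (N := N) (L := L) (L₂ := N) β a hβ
    (fun ℓ z => lbl_zero _) (fun ℓ z i => lbl_abs _ i) (fun ℓ z => lbl_l1 _ N) f B hB0 hpair
    (Nat.lt_pow_self (by norm_num)).le hρ hσ hX' hW'
  refine le_trans ?_ hcore
  -- identify the pairing
  have hid : ∀ z, ∀ ℓ ∈ range L, ∑ j ∈ range N,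
        (C.av q (fun w => f w j) z - f z j) * (a ℓ z (j + 1) - a ℓ z j)
      = val (C.Hh' g q z).1 ℓ (c ℓ z) := by
    intro z ℓ hℓ
    rw [(C.Hh' g q z).2 ℓ (c ℓ z), Finset.sum_subset (hsuppN ℓ hℓ z) (fun j _ hj => by
      rw [Finsupp.notMem_support_iff.mp hj, zero_mul])]
    refine Finset.sum_congr rfl fun j _ => ?_
    rw [coord_Hh', ha]
    simp only [lbl_succ]
    ring
  have hrw : ∑ z, C.pi z * ∑ ℓ ∈ range L, β ℓ z * ∑ j ∈ range N,
        (C.av q (fun w => f w j) z - f z j) * (a ℓ z (j + 1) - a ℓ z j)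
      = ∑ z, C.pi z * ∑ ℓ ∈ range L, β ℓ z * val (C.Hh' g q z).1 ℓ (c ℓ z) := by
    refine Finset.sum_congr rfl fun z _ => ?_
    congr 1
    refine Finset.sum_congr rfl fun ℓ hℓ => ?_
    rw [hid z ℓ hℓ]
  rw [hrw]
  have hexp : C.Rn g q L - ε * Eβ
      = ∑ z, C.pi z * ∑ ℓ ∈ range L, ((Real.sqrt (lv (C.Hh' g q z).1 ℓ)) ^ 3 - ε * β ℓ z) := by
    unfold Rn
    rw [hEβ, Finset.mul_sum, ← Finset.sum_sub_distrib]
    refine Finset.sum_congr rfl fun z _ => ?_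
    rw [Finset.sum_sub_distrib, ← Finset.mul_sum]
    ring
  rw [hexp]
  refine Finset.sum_le_sum fun z _ => mul_le_mul_of_nonneg_left ?_ (C.pi_nonneg z)
  refine Finset.sum_le_sum fun ℓ _ => ?_
  have h1 := hc ℓ z
  have h2 := mul_le_mul_of_nonneg_left h1 (hβ ℓ z)
  have h3 : β ℓ z * lv (C.Hh' g q z).1 ℓ = (Real.sqrt (lv (C.Hh' g q z).1 ℓ)) ^ 3 :=
    sqrt_mul_self' (lv_nonneg _ _)
  rw [mul_sub, h3] at h2
  linarith

lemma level_sum_bound2 (g : S → Xx) {q : ℕ} (hq : 1 ≤ q) (n : ℕ) (hqn : q ≤ 8 ^ n) (L : ℕ) {K₃ : ℝ}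
    (hK₃ : 0 ≤ K₃) (hK : K₃ ^ 2 = (2 ^ 8 * 4 ^ n * (2 * n + 4)) ^ 3) :
    C.Rn g q L ≤ K₃ * C.Wn g := by
  have hW0 := C.Wn_nonneg g
  have hR0 := C.Rn_nonneg g q L
  refine le_of_forall_eps hK₃ fun η hη => ?_
  rcases hR0.eq_or_lt with hR | hRpos
  · rw [← hR]
    nlinarith [mul_nonneg hK₃ hW0, mul_nonneg hη.le hK₃]
  set R := C.Rn g q L with hRdef
  set W := C.Wn g with hWdef
  set K₁ : ℝ := 2 ^ 8 * 4 ^ n * (2 * n + 4) with hK₁
  have hK₁pos : 0 < K₁ := by positivity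
  have hρ3 : (cr R) ^ 3 = R := cr_cube hR0
  have hσ3 : (cr (W + η)) ^ 3 = W + η := cr_cube (by linarith)
  have hρ : 0 < cr R := by
    rcases (cr_nonneg hR0).eq_or_lt with h | h
    · rw [← h] at hρ3
      norm_num at hρ3
      linarith
    · exact h
  have hσ : 0 < cr (W + η) := by
    rcases (cr_nonneg (show 0 ≤ W + η by linarith)).eq_or_lt with h | h
    · rw [← h] at hσ3
      norm_num at hσ3
      linarith
    · exact h
  set ρ := cr R with hρdef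
  set σ := cr (W + η) with hσdef
  have hmain := C.level_sum_bound g hq n hqn L hρ hσ (le_of_eq hρ3.symm) (by rw [hσ3]; linarith)
  have h1 : ρ ^ 2 ≤ K₁ * σ ^ 2 := by
    have h2 : ρ * ρ ^ 2 ≤ ρ * (K₁ * σ ^ 2) := by
      calc ρ * ρ ^ 2 = R := by rw [← hρ3]; ring
        _ ≤ K₁ * (ρ * σ ^ 2) := hmain
        _ = _ := by ring
    exact le_of_mul_le_mul_left h2 hρ
  have h2 : R ^ 2 ≤ (K₃ * (W + η)) ^ 2 := by
    have h3 : (ρ ^ 2) ^ 3 ≤ (K₁ * σ ^ 2) ^ 3 := pow_le_pow_left₀ (by positivity) h1 3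
    calc R ^ 2 = (ρ ^ 2) ^ 3 := by rw [← hρ3]; ring
      _ ≤ (K₁ * σ ^ 2) ^ 3 := h3
      _ = K₁ ^ 3 * (σ ^ 3) ^ 2 := by ring
      _ = _ := by rw [hσ3, mul_pow K₃, hK]
  have h3 : R ≤ K₃ * (W + η) :=
    (pow_le_pow_iff_left₀ hR0 (by positivity) (by norm_num)).mp h2
  nlinarith

/-- The mean displacement inequality. -/
theorem mean_bound (g : S → Xx) {q : ℕ} (hq : 1 ≤ q) (n : ℕ) (hqn : q ≤ 8 ^ n) {K₃ : ℝ}
    (hK₃ : 0 ≤ K₃) (hK : K₃ ^ 2 = (2 ^ 8 * 4 ^ n * (2 * n + 4)) ^ 3) :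
    ∑ z, C.pi z * ‖C.Hh' g q z‖ ^ (3 / 2 : ℝ) ≤ K₃ * C.Wn g := by
  have hlim : Filter.Tendsto (fun L => C.Rn g q L) Filter.atTop
      (nhds (∑ z, C.pi z * ‖C.Hh' g q z‖ ^ (3 / 2 : ℝ))) := by
    unfold Rn
    refine tendsto_finsetSum _ fun z _ => Filter.Tendsto.const_mul _ ?_
    have e : ∀ L, ∑ ℓ ∈ range L, (Real.sqrt (lv (C.Hh' g q z).1 ℓ)) ^ 3
        = ∑ ℓ ∈ range L, (lv (C.Hh' g q z).1 ℓ) ^ (3 / 2 : ℝ) := by
      intro L
      exact Finset.sum_congr rfl fun ℓ _ => sqrt_cube (lv_nonneg _ _)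
    simp only [e]
    have h2 : ‖C.Hh' g q z‖ ^ (3 / 2 : ℝ) = ∑' ℓ, (lv (C.Hh' g q z).1 ℓ) ^ (3 / 2 : ℝ) :=
      norm_rpow_eq (C.Hh' g q z).1
    rw [h2]
    exact (summable_lv (C.Hh' g q z).1).hasSum.tendsto_sum_nat
  exact le_of_tendsto' hlim fun L => C.level_sum_bound2 g hq n hqn L hK₃ hK

end Vale.Agent.Lib.P125.Chain

namespace Vale.Agent.Lib.P125.Mt

lemma constant_form (n : ℕ) :
    ((2 : ℝ) ^ 12 * 8 ^ n * (2 * (n : ℝ) + 4) ^ (3 / 2 : ℝ)) ^ 2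
      = (2 ^ 8 * 4 ^ n * (2 * n + 4)) ^ 3 := by
  have h0 : (0 : ℝ) ≤ 2 * (n : ℝ) + 4 := by positivity
  have h1 : ((2 * (n : ℝ) + 4) ^ (3 / 2 : ℝ)) ^ 2 = (2 * (n : ℝ) + 4) ^ 3 := by
    rw [← Real.rpow_natCast, ← Real.rpow_mul h0, ← Real.rpow_natCast]
    norm_num
  have h2 : ((8 : ℝ) ^ n) ^ 2 = ((4 : ℝ) ^ n) ^ 3 := by
    rw [← pow_mul, ← pow_mul, mul_comm, pow_mul, mul_comm n 3, pow_mul]
    norm_num
  rw [mul_pow, mul_pow, h1, h2, mul_pow, mul_pow]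
  norm_num

/-- The final numerical constant. -/
lemma constant_bound {q : ℕ} (hq : 1 ≤ q) :
    (2 : ℝ) ^ 12 * 8 ^ (Nat.log 8 q + 1) * (2 * ((Nat.log 8 q + 1 : ℕ) : ℝ) + 4) ^ (3 / 2 : ℝ)
      ≤ 500000 * q * (1 + Real.log q) ^ (3 / 2 : ℝ) := by
  have hq0 : (0 : ℝ) < q := by exact_mod_cast hq
  have hq1 : (1 : ℝ) ≤ q := by exact_mod_cast hq
  have hlog0 : 0 ≤ Real.log q := Real.log_nonneg hq1
  have h8 : (8 : ℝ) ^ (Nat.log 8 q) ≤ q := by
    have := Nat.pow_log_le_self 8 (show q ≠ 0 by omega)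
    exact_mod_cast this
  have hlogn : 2 * ((Nat.log 8 q : ℕ) : ℝ) ≤ Real.log q := by
    have h1 := Real.log_le_log (by positivity) h8
    rw [Real.log_pow] at h1
    have h2 : (2 : ℝ) ≤ Real.log 8 := by
      have e : Real.log 8 = 3 * Real.log 2 := by
        rw [show (8 : ℝ) = 2 ^ 3 by norm_num, Real.log_pow]; norm_num
      have := Real.log_two_gt_d9
      rw [e]; linarith
    have h3 : (0 : ℝ) ≤ ((Nat.log 8 q : ℕ) : ℝ) := by positivity
    nlinarith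
  have h1 : 2 * (((Nat.log 8 q + 1 : ℕ) : ℝ)) + 4 ≤ 6 * (1 + Real.log q) := by
    push_cast
    linarith
  have h2 : (2 * (((Nat.log 8 q + 1 : ℕ) : ℝ)) + 4) ^ (3 / 2 : ℝ)
      ≤ (6 * (1 + Real.log q)) ^ (3 / 2 : ℝ) :=
    Real.rpow_le_rpow (by positivity) h1 (by norm_num)
  have h3 : (6 * (1 + Real.log q)) ^ (3 / 2 : ℝ) = 6 ^ (3 / 2 : ℝ) * (1 + Real.log q) ^ (3 / 2 : ℝ) :=
    Real.mul_rpow (by norm_num) (by positivity)
  have h4 : (6 : ℝ) ^ (3 / 2 : ℝ) ≤ 15 := by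
    have e : ((6 : ℝ) ^ (3 / 2 : ℝ)) ^ 2 = 216 := by
      rw [← Real.rpow_natCast, ← Real.rpow_mul (by norm_num)]
      norm_num
    have hpos : (0 : ℝ) ≤ (6 : ℝ) ^ (3 / 2 : ℝ) := by positivity
    nlinarith
  have h5 : (0 : ℝ) ≤ (1 + Real.log q) ^ (3 / 2 : ℝ) := by positivity
  have h6 : (8 : ℝ) ^ (Nat.log 8 q + 1) ≤ 8 * q := by
    rw [pow_succ]; linarith
  calc (2 : ℝ) ^ 12 * 8 ^ (Nat.log 8 q + 1) * (2 * ((Nat.log 8 q + 1 : ℕ) : ℝ) + 4) ^ (3 / 2 : ℝ)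
      ≤ (2 : ℝ) ^ 12 * (8 * q) * (15 * (1 + Real.log q) ^ (3 / 2 : ℝ)) := by
        refine mul_le_mul (mul_le_mul_of_nonneg_left h6 (by norm_num)) ?_ (by positivity)
          (by positivity)
        rw [h3] at h2
        refine h2.trans ?_
        exact mul_le_mul_of_nonneg_right h4 h5
    _ ≤ _ := by
        have : (0 : ℝ) ≤ q * (1 + Real.log q) ^ (3 / 2 : ℝ) := by positivity
        nlinarith

/-- The statement, for the space `Xx`. -/
theorem main_mean {S : Type} [Fintype S] [DecidableEq S] (π : S → ℝ) (P : Matrix S S ℝ)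
    (hπ : ∀ x, 0 ≤ π x) (hπ1 : ∑ x, π x = 1) (hP : ∀ x y, 0 ≤ P x y) (hP1 : ∀ x, ∑ y, P x y = 1)
    (hrev : ∀ x y, π x * P x y = π y * P y x) (f : S → Xx) (t : ℕ) :
    ∑ x, π x * ‖∑ y, (P ^ t) x y • f y - f x‖ ^ (3 / 2 : ℝ)
      ≤ 500000 * t * (1 + Real.log t) ^ (3 / 2 : ℝ) *
        ∑ x, ∑ y, π x * P x y * ‖f y - f x‖ ^ (3 / 2 : ℝ) := by
  let C : Chain S := ⟨π, P, hπ, hP, hP1, hπ1, hrev⟩
  rcases Nat.eq_zero_or_pos t with rfl | ht
  · have e : ∀ x, ∑ y, (P ^ 0) x y • f y - f x = 0 := by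
      intro x
      simp [Matrix.one_apply]
    simp only [e]
    simp
  have hqn : t ≤ 8 ^ (Nat.log 8 t + 1) := (Nat.lt_pow_succ_log_self (by norm_num) t).le
  have hb := C.mean_bound f ht (Nat.log 8 t + 1) hqn
    (K₃ := (2 : ℝ) ^ 12 * 8 ^ (Nat.log 8 t + 1) * (2 * ((Nat.log 8 t + 1 : ℕ) : ℝ) + 4) ^ (3 / 2 : ℝ))
    (by positivity) (constant_form _)
  refine hb.trans ?_
  exact mul_le_mul_of_nonneg_right (constant_bound ht) (C.Wn_nonneg f)

end Vale.Agent.Lib.P125.Mt
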